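import Mathlib

namespace Vale.Agent.P075

open MeasureTheory

/-- The dyadic interval `[2^k n, 2^k (n+1))`. -/
def dyad (k : ℤ) (n : ℕ) : Set ℝ := Set.Ico ((2 : ℝ) ^ k * n) ((2 : ℝ) ^ k * (n + 1))

/-- The Haar function of the dyadic interval `[2^k n, 2^k (n+1))`: indicator of the left half
minus indicator of the right half. -/
noncomputable def haar (k : ℤ) (n : ℕ) (x : ℝ) : ℝ :=
  (Set.Ico ((2 : ℝ) ^ k * n) ((2 : ℝ) ^ k * (n + 1 / 2))).indicator (fun _ => (1 : ℝ)) x -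
    (Set.Ico ((2 : ℝ) ^ k * (n + 1 / 2)) ((2 : ℝ) ^ k * (n + 1))).indicator (fun _ => (1 : ℝ)) x

/-- Index triples with vanishing bitwise XOR. -/
def xorTriples : Set (ℕ × ℕ × ℕ) := {I | I.1 ^^^ I.2.1 ^^^ I.2.2 = 0}

/-- The local form `L_I` for the triple of dyadic intervals of length `2^k` with indices `I`. -/
noncomputable def localForm (k : ℤ) (I : ℕ × ℕ × ℕ) (F₀ F₁ F₂ : ℝ × ℝ → ℝ) : ℝ :=
  (2 : ℝ) ^ (-k) * ∫ x in dyad k I.1 ×ˢ dyad k I.2.1 ×ˢ dyad k I.2.2,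
    F₀ (x.1, x.2.1) * F₁ (x.2.1, x.2.2) * F₂ (x.2.2, x.1) *
      (haar k I.1 x.1 * haar k I.2.1 x.2.1 * haar k I.2.2 x.2.2)

/-- The dyadic triangular Hilbert form over the finite set of scales `S` with coefficients `ε`. -/
noncomputable def dyadicForm (S : Finset ℤ) (ε : ℤ → ℝ) (F₀ F₁ F₂ : ℝ × ℝ → ℝ) : ℝ :=
  ∑ k ∈ S, ε k * ∑' I : xorTriples, localForm k I F₀ F₁ F₂

/-- The `L^3` norm on the quadrant `[0,∞)^2`. -/
noncomputable def normL3 (F : ℝ × ℝ → ℝ) : ℝ :=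
  (∫ p in Set.Ici (0 : ℝ) ×ˢ Set.Ici (0 : ℝ), |F p| ^ 3) ^ (1 / 3 : ℝ)

/-- Bounded, compactly supported, measurable real functions. -/
def Admissible (F : ℝ × ℝ → ℝ) : Prop :=
  Measurable F ∧ (∃ B : ℝ, ∀ p, |F p| ≤ B) ∧ HasCompactSupport F

end Vale.Agent.P075
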