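import Vale.Agent.P075.Flow

namespace Vale.Agent.P075

open Matrix Finset Filter Topology

theorem pot_leaf {ι : Type} [Fintype ι] [DecidableEq ι] {t : ℝ} (ht : 0 ≤ t) (i : ι) {c A : ℝ}
    (hc : 0 ≤ c) (hA : 0 ≤ A) (h : c ≤ A ^ 2) (hX : (single i i c : Matrix ι ι ℝ).PosSemidef) :
    Pot t (single i i c : Matrix ι ι ℝ) ≤ 2 * (A ^ 4 / (1 + t * A) ^ 2) := by
  have hp : 0 < 1 + t ^ 2 * c := by positivity
  have e1 : (1 + t ^ 2 • (single i i c : Matrix ι ι ℝ)) * single i i c =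
      (1 + t ^ 2 * c) • single i i c := by
    rw [Matrix.add_mul, Matrix.one_mul, Matrix.smul_mul, single_mul_single_same, add_smul,
      one_smul, smul_single, smul_single]
    simp [mul_assoc]
  have e2 : (1 + t ^ 2 * c) • (Rz t (single i i c : Matrix ι ι ℝ) * single i i c) =
      single i i c := by
    rw [← Matrix.mul_smul, ← e1, ← Matrix.mul_assoc, Rz_mul t hX, Matrix.one_mul]
  have e3 : (1 + t ^ 2 * c) * Pot t (single i i c : Matrix ι ι ℝ) = c ^ 2 := by
    rw [Pot, ← ip_smul_right, e2, ip, psd_symm hX, single_mul_single_same, trace_single_eq_same, sq]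
  have e4 : Pot t (single i i c : Matrix ι ι ℝ) = c ^ 2 / (1 + t ^ 2 * c) := by
    rw [eq_div_iff hp.ne', mul_comm, e3]
  rw [e4, ← mul_div_assoc, div_le_div_iff₀ hp (by positivity)]
  have h1 : (1 + t * A) ^ 2 ≤ 2 * (1 + t ^ 2 * A ^ 2) := by nlinarith [sq_nonneg (1 - t * A)]
  have h2 : c ^ 2 ≤ A ^ 4 := by nlinarith
  have h3 : c ^ 2 * (t ^ 2 * A ^ 2) ≤ A ^ 4 * (t ^ 2 * c) := by
    have := mul_le_mul_of_nonneg_left h (show 0 ≤ c * t ^ 2 * A ^ 2 by positivity)
    nlinarith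
  have h4 := mul_le_mul_of_nonneg_left h1 (sq_nonneg c)
  nlinarith

theorem flow {Λ : Type*} (s : Finset Λ) (A : Λ → ℝ) (hA : ∀ l, 0 ≤ A l) (H H' : ℝ → ℝ) (C : ℝ)
    (h1 : ∀ t, HasDerivAt H (H' t) t)
    (h2 : ∀ t, 0 ≤ t → |H' t| ≤ 12 * ∑ l ∈ s, A l ^ 4 / (1 + t * A l) ^ 2)
    (h3 : ∀ t, |t ^ 3 * H t| ≤ C) : H 0 ≤ 12 * ∑ l ∈ s, A l ^ 3 := by
  let U : ℝ → ℝ := fun t => 12 * ∑ l ∈ s, A l ^ 3 / (1 + t * A l) - H t
  have hU : ∀ t, 0 ≤ t → HasDerivAt U
      (12 * ∑ l ∈ s, -(A l ^ 4 / (1 + t * A l) ^ 2) - H' t) t := by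
    intro t ht
    refine ((HasDerivAt.fun_sum fun l _ => ?_).const_mul 12).sub (h1 t)
    have hp : 0 < 1 + t * A l := by have := hA l; positivity
    have := (hasDerivAt_const t (A l ^ 3)).div
      (((hasDerivAt_id t).mul_const (A l)).const_add 1) hp.ne'
    exact this.congr_deriv (by simp only [id]; ring)
  have hanti : AntitoneOn U (Set.Ici 0) := by
    refine antitoneOn_of_deriv_nonpos (convex_Ici 0)
      (fun t ht => (hU t ht).continuousAt.continuousWithinAt)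
      (fun t ht => (hU t (interior_subset ht)).differentiableAt.differentiableWithinAt)
      fun t ht => ?_
    have ht' : 0 ≤ t := interior_subset ht
    rw [(hU t ht').deriv, sum_neg_distrib]
    have := h2 t ht'
    have := neg_abs_le (H' t)
    linarith
  have h4 : ∀ T : ℝ, 1 ≤ T → -(C / T) ≤ U 0 := by
    intro T hT
    refine le_trans ?_ (hanti (Set.mem_Ici.2 le_rfl) (Set.mem_Ici.2 (by linarith)) (by linarith))
    have a1 : 0 ≤ ∑ l ∈ s, A l ^ 3 / (1 + T * A l) :=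
      sum_nonneg fun l _ => by have := hA l; positivity
    have a2 := h3 T
    rw [abs_mul, abs_of_pos (by positivity)] at a2
    have a3 : |H T| ≤ C / T := by
      rw [le_div_iff₀ (by linarith)]
      have : T ≤ T ^ 3 := by nlinarith [sq_nonneg T]
      nlinarith [abs_nonneg (H T)]
    have := le_abs_self (H T)
    simp only [U]; linarith
  have h5 : Tendsto (fun T : ℝ => -(C / T)) atTop (𝓝 (-0)) :=
    (tendsto_const_nhds.div_atTop tendsto_id).neg
  have h6 := le_of_tendsto h5 (eventually_atTop.2 ⟨1, h4⟩)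
  simpa [U] using h6

/-- indicator of a discrete dyadic interval -/
def pp (k n x : ℕ) : ℝ := if x / 2 ^ k = n then 1 else 0

/-- indicator of a binary digit -/
def qq (k : ℕ) (c : Bool) (x : ℕ) : ℝ := if x / 2 ^ k % 2 = c.toNat then 1 else 0

/-- discrete Haar function -/
def hd (k n x : ℕ) : ℝ := pp (k + 1) n x * (qq k false x - qq k true x)

theorem pp_bit (k n : ℕ) (c : Bool) (x : ℕ) :
    pp k (Nat.bit c n) x = qq k c x * pp (k + 1) n x := by
  have := c.toNat_le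
  simp only [pp, qq, Nat.bit_val, pow_succ, ← Nat.div_div_eq_div_mul]
  split_ifs <;> first | omega | simp

variable {m : ℕ}

/-- digit projections -/
def QQ (m k : ℕ) (c : Bool) : Matrix (Fin m) (Fin m) ℝ := diagonal fun x => qq k c x

/-- normalised block -/
noncomputable def node (m k : ℕ) (F : ℕ → ℕ → ℝ) (a b : ℕ) : Matrix (Fin m) (Fin m) ℝ :=
  of fun x y => (2 ^ k : ℝ)⁻¹ * (pp k a x * F x y * pp k b y)

theorem node_bit (k : ℕ) (F : ℕ → ℕ → ℝ) (a b : ℕ) (i j : Bool) :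
    node m k F (Nat.bit i a) (Nat.bit j b) =
      (2 : ℝ) • (QQ m k i * node m (k + 1) F a b * QQ m k j) := by
  ext x y
  simp only [node, QQ, of_apply, Matrix.smul_apply, mul_diagonal, diagonal_mul, pp_bit, smul_eq_mul,
    pow_succ]
  field_simp

theorem QQ_symm (k : ℕ) (c : Bool) : (QQ m k c)ᵀ = QQ m k c := diagonal_transpose _

theorem QQ_idem (k : ℕ) (c : Bool) : QQ m k c * QQ m k c = QQ m k c := by
  rw [QQ, diagonal_mul_diagonal]; congr 1; funext x; simp only [qq]; split_ifs <;> simp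

theorem QQ_sum (k : ℕ) : QQ m k false + QQ m k true = 1 := by
  rw [QQ, QQ, diagonal_add, ← diagonal_one]; congr 1; funext x
  simp only [qq, Bool.toNat_false, Bool.toNat_true]; split_ifs <;> first | omega | simp

/-- sign matrix -/
def DD (m k : ℕ) : Matrix (Fin m) (Fin m) ℝ := QQ m k false - QQ m k true

theorem DD_symm (k : ℕ) : (DD m k)ᵀ = DD m k := by rw [DD, transpose_sub, QQ_symm, QQ_symm]

theorem DD_eq (k : ℕ) : DD m k = diagonal fun x : Fin m => qq k false x - qq k true x := by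
  rw [DD, QQ, QQ, diagonal_sub]

theorem DD_con (k : ℕ) : Con (DD m k) := fun A => by
  have : DD m k * DD m k = 1 := by
    rw [DD_eq, diagonal_mul_diagonal, ← diagonal_one]; congr 1; funext x
    simp only [qq, Bool.toNat_false, Bool.toNat_true]; split_ifs <;> first | omega | simp
  rw [ip_mul_left, DD_symm, ← Matrix.mul_assoc, this, Matrix.one_mul]

theorem sum_bit (f : ℕ → ℝ) (n : ℕ) :
    ∑ a ∈ range (2 * n), f a = ∑ a ∈ range n, ∑ i, f (Nat.bit i a) := by
  induction n with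
  | zero => simp
  | succ n ih =>
    rw [show 2 * (n + 1) = 2 * n + 1 + 1 by ring, sum_range_succ, sum_range_succ, ih,
      sum_range_succ]
    simp [Nat.bit_val]; ring

theorem telescope (t : ℝ) (F G : ℕ → ℕ → ℝ) (N : ℕ) : ∀ k ≤ N,
    ∑ a ∈ range (2 ^ (N - k)), ∑ b ∈ range (2 ^ (N - k)),
        4 ^ k * Pot t (XX (node m k F a b) (node m k G b (a ^^^ b))) +
      ∑ i ∈ range k, ∑ a ∈ range (2 ^ (N - (i + 1))), ∑ b ∈ range (2 ^ (N - (i + 1))),
        4 ^ (i + 1) * gam t (DD m i) (XX (node m (i + 1) F a b) (node m (i + 1) G b (a ^^^ b))) ≤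
      ∑ a ∈ range (2 ^ N), ∑ b ∈ range (2 ^ N),
        Pot t (XX (node m 0 F a b) (node m 0 G b (a ^^^ b))) := by
  intro k
  induction k with
  | zero => simp
  | succ k ih =>
    intro hk
    refine le_trans ?_ (ih (by omega))
    rw [sum_range_succ, add_comm (∑ i ∈ range k, _), ← add_assoc]
    refine add_le_add_left ?_ _
    rw [show N - k = N - (k + 1) + 1 by omega, pow_succ' 2, sum_bit, ← sum_add_distrib]
    refine sum_le_sum fun a _ => ?_
    simp only [sum_bit]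
    rw [← sum_add_distrib, sum_comm]
    refine sum_le_sum fun b _ => ?_
    simp only [Nat.xor_bit, node_bit, ← mul_sum]
    have := node_step t (node m (k + 1) F a b) (node m (k + 1) G b (a ^^^ b)) (QQ m k)
      (QQ_symm k) (QQ_idem k) (QQ_sum k)
    have h4 : (0 : ℝ) ≤ 4 ^ k := by positivity
    have := mul_le_mul_of_nonneg_left this h4
    rw [pow_succ, DD]
    refine le_trans (le_of_eq ?_) this
    ring

theorem node_zero (F : ℕ → ℕ → ℝ) {a b : ℕ} (ha : a < m) (hb : b < m) :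
    node m 0 F a b = single ⟨a, ha⟩ ⟨b, hb⟩ (F a b) := by
  ext x y
  simp only [node, pp, of_apply, pow_zero, inv_one, one_mul, Nat.div_one, single, Fin.ext_iff]
  simp only [eq_comm (a := a), eq_comm (a := b)]
  by_cases h1 : (x : ℕ) = a <;> by_cases h2 : (y : ℕ) = b <;> simp [h1, h2]

theorem gam_sum {t : ℝ} (ht : 0 ≤ t) (F G : ℕ → ℕ → ℝ) (N : ℕ) :
    ∑ i ∈ range N, ∑ a ∈ range (2 ^ (N - (i + 1))), ∑ b ∈ range (2 ^ (N - (i + 1))),
        4 ^ (i + 1) * gam t (DD (2 ^ N) i)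
          (XX (node (2 ^ N) (i + 1) F a b) (node (2 ^ N) (i + 1) G b (a ^^^ b))) ≤
      2 * ∑ a ∈ range (2 ^ N), ∑ b ∈ range (2 ^ N),
        (|F a b| + |G b (a ^^^ b)|) ^ 4 / (1 + t * (|F a b| + |G b (a ^^^ b)|)) ^ 2 := by
  have h := telescope (m := 2 ^ N) t F G N N le_rfl
  have h0 : 0 ≤ ∑ a ∈ range (2 ^ (N - N)), ∑ b ∈ range (2 ^ (N - N)),
      4 ^ N * Pot t (XX (node (2 ^ N) N F a b) (node (2 ^ N) N G b (a ^^^ b))) :=
    sum_nonneg fun _ _ => sum_nonneg fun _ _ => mul_nonneg (by positivity)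
      (pot_nonneg t (XX_psd _ _))
  refine le_trans (by linarith) (h.trans ?_)
  simp only [mul_sum]
  refine sum_le_sum fun a ha => sum_le_sum fun b hb => ?_
  have ha := mem_range.1 ha
  have hb := mem_range.1 hb
  have hc := Nat.xor_lt_two_pow ha hb
  have e : XX (node (2 ^ N) 0 F a b) (node (2 ^ N) 0 G b (a ^^^ b)) =
      single ⟨b, hb⟩ ⟨b, hb⟩ (F a b * F a b + G b (a ^^^ b) * G b (a ^^^ b)) := by
    rw [node_zero F ha hb, node_zero G hb hc, XX, transpose_single, transpose_single,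
      single_mul_single_same, single_mul_single_same, single_add]
  have hp := XX_psd (node (2 ^ N) 0 F a b) (node (2 ^ N) 0 G b (a ^^^ b))
  rw [e] at hp ⊢
  refine pot_leaf ht _ (add_nonneg (mul_self_nonneg _) (mul_self_nonneg _)) (by positivity) ?_ hp
  rw [← abs_mul_abs_self (F a b), ← abs_mul_abs_self (G b _)]
  have := mul_nonneg (abs_nonneg (F a b)) (abs_nonneg (G b (a ^^^ b)))
  nlinarith

theorem xor_reindex (f : ℕ → ℝ) {r b : ℕ} (hb : b < 2 ^ r) :
    ∑ a ∈ range (2 ^ r), f (a ^^^ b) = ∑ a ∈ range (2 ^ r), f a :=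
  sum_nbij' (· ^^^ b) (· ^^^ b)
    (fun _ ha => mem_range.2 (Nat.xor_lt_two_pow (mem_range.1 ha) hb))
    (fun _ ha => mem_range.2 (Nat.xor_lt_two_pow (mem_range.1 ha) hb))
    (fun a _ => by simp) (fun a _ => by simp) fun _ _ => rfl

theorem cyc (g : ℕ → ℕ → ℕ → ℝ) (r : ℕ) :
    ∑ a ∈ range (2 ^ r), ∑ b ∈ range (2 ^ r), g b (a ^^^ b) a =
      ∑ a ∈ range (2 ^ r), ∑ b ∈ range (2 ^ r), g a b (a ^^^ b) := by
  rw [sum_comm]
  refine sum_congr rfl fun b hb => ?_
  rw [← xor_reindex _ (mem_range.1 hb)]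
  refine sum_congr rfl fun a _ => ?_
  simp [Nat.xor_comm a b]

/-- discrete dyadic triangular form of one node -/
noncomputable def ell (m k : ℕ) (F G K : ℕ → ℕ → ℝ) (a b c : ℕ) : ℝ :=
  (2 ^ (k + 1) : ℝ)⁻¹ * ∑ x ∈ range m, ∑ y ∈ range m, ∑ z ∈ range m,
    hd k a x * hd k b y * hd k c z * (F x y * G y z * K z x)

theorem pp_sq (k n x : ℕ) : pp k n x * pp k n x = pp k n x := by
  simp only [pp]; split_ifs <;> simp

theorem trace_six {ι : Type} [Fintype ι] [DecidableEq ι] (L M K : Matrix ι ι ℝ) (d : ι → ℝ) :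
    trace (L * diagonal d * M * diagonal d * K * diagonal d) =
      ∑ x, ∑ y, ∑ z, L x y * d y * M y z * d z * K z x * d x := by
  rw [trace]
  refine sum_congr rfl fun x _ => ?_
  rw [diag_apply, mul_diagonal, mul_apply, sum_mul, sum_comm]
  refine sum_congr rfl fun z _ => ?_
  rw [mul_diagonal, mul_apply, sum_mul, sum_mul, sum_mul]
  refine sum_congr rfl fun y _ => ?_
  rw [mul_diagonal]

theorem Phi_node (k : ℕ) (F G K : ℕ → ℕ → ℝ) (a b c : ℕ) :
    4 ^ (k + 1) * Phi 0 (DD m k) (node m (k + 1) F a b) (node m (k + 1) G b c)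
      (node m (k + 1) K c a) = ell m k F G K a b c := by
  rw [Phi_zero, DD_eq, ell, trace_six]
  simp only [mul_sum, ← Fin.sum_univ_eq_sum_range]
  refine sum_congr rfl fun x _ => sum_congr rfl fun y _ => sum_congr rfl fun z _ => ?_
  simp only [node, of_apply, hd]
  have e : (4 : ℝ) ^ (k + 1) = 2 ^ (k + 1) * 2 ^ (k + 1) := by rw [← mul_pow]; norm_num
  rw [e]
  conv_rhs => rw [← pp_sq (k + 1) a x, ← pp_sq (k + 1) b y, ← pp_sq (k + 1) c z]
  field_simp

theorem cube_le (a b : ℝ) : (|a| + |b|) ^ 3 ≤ 4 * (|a| ^ 3 + |b| ^ 3) := by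
  have ha := abs_nonneg a
  have hb := abs_nonneg b
  nlinarith [mul_nonneg (add_nonneg ha hb) (sq_nonneg (|a| - |b|))]

theorem disc (N : ℕ) (F G K : ℕ → ℕ → ℝ) (e : ℕ → ℝ) (he : ∀ i, |e i| ≤ 1) :
    ∑ i ∈ range N, e i * ∑ a ∈ range (2 ^ (N - (i + 1))), ∑ b ∈ range (2 ^ (N - (i + 1))),
      ell (2 ^ N) i F G K a b (a ^^^ b) ≤
      96 * ∑ a ∈ range (2 ^ N), ∑ b ∈ range (2 ^ N), (|F a b| ^ 3 + |G a b| ^ 3 + |K a b| ^ 3) := by
  let A : Fin 3 × ℕ × ℕ → ℝ := fun l => ![|F l.2.1 l.2.2| + |G l.2.2 (l.2.1 ^^^ l.2.2)|,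
    |G l.2.1 l.2.2| + |K l.2.2 (l.2.1 ^^^ l.2.2)|,
    |K l.2.1 l.2.2| + |F l.2.2 (l.2.1 ^^^ l.2.2)|] l.1
  have hA : ∀ l, 0 ≤ A l := by
    rintro ⟨v, a, b⟩
    fin_cases v <;> simp only [A] <;> simp <;> positivity
  let nd := fun i F a b => node (2 ^ N) (i + 1) F a b
  have h := flow (univ ×ˢ range (2 ^ N) ×ˢ range (2 ^ N)) A hA
    (fun t => ∑ i ∈ range N, e i * ∑ a ∈ range (2 ^ (N - (i + 1))),
      ∑ b ∈ range (2 ^ (N - (i + 1))), 4 ^ (i + 1) *
        Phi t (DD (2 ^ N) i) (nd i F a b) (nd i G b (a ^^^ b)) (nd i K (a ^^^ b) a))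
    (fun t => ∑ i ∈ range N, e i * ∑ a ∈ range (2 ^ (N - (i + 1))),
      ∑ b ∈ range (2 ^ (N - (i + 1))), 4 ^ (i + 1) *
        (dPhi t (DD (2 ^ N) i) (nd i F a b) (nd i G b (a ^^^ b)) (nd i K (a ^^^ b) a) +
        dPhi t (DD (2 ^ N) i) (nd i G b (a ^^^ b)) (nd i K (a ^^^ b) a) (nd i F a b) +
        dPhi t (DD (2 ^ N) i) (nd i K (a ^^^ b) a) (nd i F a b) (nd i G b (a ^^^ b))))
    (∑ i ∈ range N, ∑ a ∈ range (2 ^ (N - (i + 1))), ∑ b ∈ range (2 ^ (N - (i + 1))),
      4 ^ (i + 1) * ip (1 : Matrix (Fin (2 ^ N)) (Fin (2 ^ N)) ℝ) 1)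
    (fun t => HasDerivAt.fun_sum fun i _ => (HasDerivAt.fun_sum fun a _ =>
      HasDerivAt.fun_sum fun b _ => (hasDerivAt_Phi t _ _ _ _).const_mul _).const_mul _)
    (fun t ht => by
      have g1 := gam_sum ht F G N
      have g2 := gam_sum ht G K N
      have g3 := gam_sum ht K F N
      simp only [sum_product, Fin.sum_univ_three, A, Matrix.cons_val]
      refine le_trans ?_ ((mul_le_mul_of_nonneg_left (add_le_add (add_le_add g1 g2) g3)
        (show (0 : ℝ) ≤ 6 by norm_num)).trans (le_of_eq (by ring)))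
      rw [← sum_add_distrib, ← sum_add_distrib, mul_sum]
      refine (abs_sum_le_sum_abs _ _).trans (sum_le_sum fun i _ => ?_)
      rw [abs_mul]
      refine (mul_le_of_le_one_left (abs_nonneg _) (he i)).trans ?_
      have c2 := cyc (fun b c a => 4 ^ (i + 1) * gam t (DD (2 ^ N) i)
        (XX (nd i G b c) (nd i K c a))) (N - (i + 1))
      have c3 := (cyc (fun a b c => 4 ^ (i + 1) * gam t (DD (2 ^ N) i)
        (XX (nd i K c a) (nd i F a b))) (N - (i + 1)))
      simp only [nd] at c2 c3 ⊢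
      rw [← c2, c3, ← sum_add_distrib, ← sum_add_distrib, mul_sum]
      refine (abs_sum_le_sum_abs _ _).trans (sum_le_sum fun a _ => ?_)
      rw [← sum_add_distrib, ← sum_add_distrib, mul_sum]
      refine (abs_sum_le_sum_abs _ _).trans (sum_le_sum fun b _ => ?_)
      rw [abs_mul, abs_of_pos (by positivity), ← mul_add, ← mul_add, mul_left_comm]
      refine mul_le_mul_of_nonneg_left ((abs_add_three _ _ _).trans ?_) (by positivity)
      refine (add_le_add (add_le_add (dPhi_le t (DD_symm i) (DD_con i) _ _ _)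
        (dPhi_le t (DD_symm i) (DD_con i) _ _ _)) (dPhi_le t (DD_symm i) (DD_con i) _ _ _)).trans
        (le_of_eq (by ring)))
    (fun t => by
      rw [mul_sum]
      refine (abs_sum_le_sum_abs _ _).trans (sum_le_sum fun i _ => ?_)
      rw [mul_left_comm, abs_mul]
      refine (mul_le_of_le_one_left (abs_nonneg _) (he i)).trans ?_
      rw [mul_sum]
      refine (abs_sum_le_sum_abs _ _).trans (sum_le_sum fun a _ => ?_)
      rw [mul_sum]
      refine (abs_sum_le_sum_abs _ _).trans (sum_le_sum fun b _ => ?_)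
      rw [mul_left_comm, abs_mul, abs_of_pos (by positivity)]
      exact mul_le_mul_of_nonneg_left (Phi_decay t (DD_con i) _ _ _) (by positivity))
  simp only [nd, Phi_node, sum_product, Fin.sum_univ_three, A, Matrix.cons_val] at h
  refine h.trans ?_
  have k : ∀ F G : ℕ → ℕ → ℝ, ∑ a ∈ range (2 ^ N), ∑ b ∈ range (2 ^ N),
      (|F a b| + |G b (a ^^^ b)|) ^ 3 ≤ 4 * (∑ a ∈ range (2 ^ N), ∑ b ∈ range (2 ^ N), |F a b| ^ 3
        + ∑ a ∈ range (2 ^ N), ∑ b ∈ range (2 ^ N), |G a b| ^ 3) := by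
    intro F G
    rw [← cyc (fun a b _ => |G a b| ^ 3) N, ← sum_add_distrib, mul_sum]
    refine sum_le_sum fun a _ => ?_
    rw [← sum_add_distrib, mul_sum]
    exact sum_le_sum fun b _ => cube_le _ _
  simp only [sum_add_distrib]
  linarith [k F G, k G K, k K F]

end Vale.Agent.P075
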