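import Vale.Agent.P075.Mat

namespace Vale.Agent.P075

open Matrix Finset

variable {ι : Type} [Fintype ι] [DecidableEq ι]

/-- damped sign matrix -/
noncomputable def EE (t : ℝ) (D X : Matrix ι ι ℝ) : Matrix ι ι ℝ := Rz t X * D * Rz t X

/-- its derivative -/
noncomputable def dE (t : ℝ) (D X : Matrix ι ι ℝ) : Matrix ι ι ℝ :=
  (-2 : ℝ) • (t • (Rz t X * X * Rz t X * D * Rz t X) + t • (Rz t X * D * (Rz t X * X * Rz t X)))

/-- damped triangular form -/
noncomputable def Phi (t : ℝ) (D L M K : Matrix ι ι ℝ) : ℝ :=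
  trace (L * EE t D (XX L M) * M * EE t D (XX M K) * K * EE t D (XX K L))

/-- one term of the derivative -/
noncomputable def dPhi (t : ℝ) (D L M K : Matrix ι ι ℝ) : ℝ :=
  trace (L * dE t D (XX L M) * M * EE t D (XX M K) * K * EE t D (XX K L))

theorem ip_Rz (t : ℝ) {X : Matrix ι ι ℝ} (hX : X.PosSemidef) (A : Matrix ι ι ℝ) :
    ip (Rz t X * A) (Rz t X * A) + 2 * (t ^ 2 * ip (Rz t X * A) (X * (Rz t X * A))) ≤ ip A A := by
  have e : A = Rz t X * A + t ^ 2 • (X * (Rz t X * A)) := by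
    rw [← Matrix.mul_assoc, ← Matrix.smul_mul, Rz_X t hX]; simp [Matrix.sub_mul]
  have := ip_self_nonneg (t ^ 2 • (X * (Rz t X * A)))
  conv_rhs => rw [e]
  rw [ip_add_left, ip_add_right, ip_add_right, ip_comm (t ^ 2 • _) (Rz t X * A), ip_smul_right]
  linarith

theorem con_Rz (t : ℝ) {X : Matrix ι ι ℝ} (hX : X.PosSemidef) : Con (Rz t X) := fun A => by
  have h1 := ip_Rz t hX A
  have h2 := mul_nonneg (sq_nonneg t) (ip_psd hX (Rz t X * A))
  linarith

theorem con_aux (t : ℝ) {X Y G : Matrix ι ι ℝ} (hX : X.PosSemidef) (hY : Y.PosSemidef)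
    (h : X = Gᵀ * G + Y) : Con (t • (G * Rz t X)) := fun A => by
  have h1 := ip_Rz t hX A
  have h2 := ip_self_nonneg (Rz t X * A)
  have h3 := mul_nonneg (sq_nonneg t) (ip_psd hY (Rz t X * A))
  have h4 := mul_nonneg (sq_nonneg t) (ip_psd (psd_gram' G) (Rz t X * A))
  have e : ip (Rz t X * A) (X * (Rz t X * A)) =
      ip (Rz t X * A) (Gᵀ * G * (Rz t X * A)) + ip (Rz t X * A) (Y * (Rz t X * A)) := by
    rw [← ip_add_right, ← Matrix.add_mul, ← h]
  rw [Matrix.smul_mul, ip_smul_left, ip_smul_right, Matrix.mul_assoc, ip_mul_left,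
    ← Matrix.mul_assoc Gᵀ, ← mul_assoc, ← sq]
  rw [e, mul_add] at h1
  linarith

theorem con_L (t : ℝ) (L M : Matrix ι ι ℝ) : Con (t • (L * Rz t (XX L M))) :=
  con_aux t (XX_psd L M) (psd_gram M) rfl

theorem con_M (t : ℝ) (L M : Matrix ι ι ℝ) : Con (t • (Mᵀ * Rz t (XX L M))) :=
  con_aux t (XX_psd L M) (psd_gram' L) (by rw [XX, transpose_transpose, add_comm])

theorem con_L' (t : ℝ) (L M : Matrix ι ι ℝ) : Con (t • (Rz t (XX L M) * Lᵀ)) := by
  simpa [Rz_symm t (XX_psd L M)] using (con_L t L M).transpose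

theorem con_M' (t : ℝ) (L M : Matrix ι ι ℝ) : Con (t • (Rz t (XX L M) * M)) := by
  simpa [Rz_symm t (XX_psd L M)] using (con_M t L M).transpose

theorem con_EE (t : ℝ) {D X : Matrix ι ι ℝ} (hD : Con D) (hX : X.PosSemidef) : Con (EE t D X) :=
  ((con_Rz t hX).mul hD).mul (con_Rz t hX)

theorem gam_eq (t : ℝ) {D : Matrix ι ι ℝ} (hD : Dᵀ = D) (L M : Matrix ι ι ℝ) :
    gam t D (XX L M) = 2 * ip (L * EE t D (XX L M) * M) (L * EE t D (XX L M) * M) +
      ip (Mᵀ * EE t D (XX L M) * M) (Mᵀ * EE t D (XX L M) * M) +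
      ip (L * EE t D (XX L M) * Lᵀ) (L * EE t D (XX L M) * Lᵀ) := by
  have hE : (EE t D (XX L M))ᵀ = EE t D (XX L M) := by
    simp only [EE, transpose_mul, hD, Rz_symm t (XX_psd L M), Matrix.mul_assoc]
  change trace (XX L M * EE t D (XX L M) * XX L M * EE t D (XX L M)) = _
  generalize EE t D (XX L M) = E at hE ⊢
  have a1 : ip (L * E * M) (L * E * M) = trace (M * Mᵀ * E * (Lᵀ * L) * E) := by
    rw [ip, ← Matrix.mul_assoc _ _ M, trace_mul_comm _ M]
    simp only [transpose_mul, hE, Matrix.mul_assoc]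
  have a2 : ip (L * E * M) (L * E * M) = trace (Lᵀ * L * E * (M * Mᵀ) * E) := by
    rw [a1, Matrix.mul_assoc (M * Mᵀ * E), trace_mul_comm]
    simp only [Matrix.mul_assoc]
  have a3 : ip (Mᵀ * E * M) (Mᵀ * E * M) = trace (M * Mᵀ * E * (M * Mᵀ) * E) := by
    rw [ip, ← Matrix.mul_assoc _ _ M, trace_mul_comm _ M]
    simp only [transpose_mul, transpose_transpose, hE, Matrix.mul_assoc]
  have a4 : ip (L * E * Lᵀ) (L * E * Lᵀ) = trace (Lᵀ * L * E * (Lᵀ * L) * E) := by
    rw [ip, ← Matrix.mul_assoc _ _ Lᵀ, trace_mul_comm _ Lᵀ]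
    simp only [transpose_mul, transpose_transpose, hE, Matrix.mul_assoc]
  rw [two_mul]
  nth_rewrite 1 [a1]
  rw [a2, a3, a4]
  simp only [XX, Matrix.add_mul, Matrix.mul_add, trace_add]
  ring

theorem gam_nonneg (t : ℝ) {D : Matrix ι ι ℝ} (hD : Dᵀ = D) (L M : Matrix ι ι ℝ) :
    0 ≤ gam t D (XX L M) := by
  rw [gam_eq t hD]
  have := ip_self_nonneg (L * EE t D (XX L M) * M)
  have := ip_self_nonneg (Mᵀ * EE t D (XX L M) * M)
  have := ip_self_nonneg (L * EE t D (XX L M) * Lᵀ)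
  linarith

theorem dPhi_le (t : ℝ) {D : Matrix ι ι ℝ} (hD : Dᵀ = D) (hc : Con D) (L M K : Matrix ι ι ℝ) :
    |dPhi t D L M K| ≤ 4 * gam t D (XX L M) + gam t D (XX M K) + gam t D (XX K L) := by
  have g1 := gam_eq t hD L M
  have g2 := gam_eq t hD M K
  have g3 := gam_eq t hD K L
  have n1 := ip_self_nonneg (L * EE t D (XX L M) * M)
  have n2 := ip_self_nonneg (Mᵀ * EE t D (XX L M) * M)
  have n3 := ip_self_nonneg (L * EE t D (XX L M) * Lᵀ)
  have n4 := ip_self_nonneg (M * EE t D (XX M K) * K)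
  have n5 := ip_self_nonneg (Kᵀ * EE t D (XX M K) * K)
  have n6 := ip_self_nonneg (M * EE t D (XX M K) * Mᵀ)
  have n7 := ip_self_nonneg (K * EE t D (XX K L) * L)
  have n8 := ip_self_nonneg (Lᵀ * EE t D (XX K L) * L)
  have n9 := ip_self_nonneg (K * EE t D (XX K L) * Kᵀ)
  set R := Rz t (XX L M) with hR
  let A := t • (R * Lᵀ) * (L * EE t D (XX L M) * M) + t • (R * M) * (Mᵀ * EE t D (XX L M) * M)
  let A' := L * EE t D (XX L M) * Lᵀ * t • (L * R) + L * EE t D (XX L M) * M * t • (Mᵀ * R)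
  have hA : ip A A ≤ 2 * gam t D (XX L M) := by
    refine (ip_add_le _ _).trans ?_
    have := con_L' t L M (L * EE t D (XX L M) * M)
    have := con_M' t L M (Mᵀ * EE t D (XX L M) * M)
    linarith
  have hA' : ip A' A' ≤ 2 * gam t D (XX L M) := by
    refine (ip_add_le _ _).trans ?_
    have := (con_L t L M).right (L * EE t D (XX L M) * Lᵀ)
    have := (con_M t L M).right (L * EE t D (XX L M) * M)
    linarith
  have e : dPhi t D L M K = -(2 * trace (A * EE t D (XX M K) * (K * EE t D (XX K L) * L))) -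
      2 * trace (EE t D (XX K L) * A' * (M * EE t D (XX M K) * K)) := by
    have e1 : L * dE t D (XX L M) * M = (-2 : ℝ) • (L * A + A' * M) := by
      simp only [dE, A, A', EE, ← hR]
      nth_rewrite 1 [XX]; nth_rewrite 1 [XX]
      simp only [Matrix.mul_add, Matrix.add_mul, Matrix.mul_smul, Matrix.smul_mul, smul_add,
        Matrix.mul_assoc]
    rw [dPhi, e1, ← Matrix.mul_assoc _ _ L, trace_mul_comm _ L,
      Matrix.mul_assoc (EE t D (XX K L)), trace_mul_comm (EE t D (XX K L))]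
    simp only [Matrix.add_mul, Matrix.smul_mul, trace_smul, trace_add, smul_eq_mul,
      Matrix.mul_assoc]
    ring
  have b1 := two_tr_le (A * EE t D (XX M K)) (K * EE t D (XX K L) * L)
  have b2 := two_tr_le (EE t D (XX K L) * A') (M * EE t D (XX M K) * K)
  have b3 := (con_EE t hc (XX_psd M K)).right A
  have b4 := con_EE t hc (XX_psd K L) A'
  rw [e]
  refine (abs_sub _ _).trans ?_
  rw [abs_neg, abs_mul, abs_mul, abs_two]
  linarith

theorem Phi_zero (D L M K : Matrix ι ι ℝ) : Phi 0 D L M K = trace (L * D * M * D * K * D) := by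
  simp [Phi, EE, Rz_zero]

theorem Phi_decay (t : ℝ) {D : Matrix ι ι ℝ} (hc : Con D) (L M K : Matrix ι ι ℝ) :
    |t ^ 3 * Phi t D L M K| ≤ ip (1 : Matrix ι ι ℝ) 1 := by
  have e : t ^ 3 * Phi t D L M K = trace (t • (L * Rz t (XX L M)) * 1 *
      (D * t • (Rz t (XX L M) * M) * EE t D (XX M K) * t • (K * Rz t (XX K L)) * D *
        Rz t (XX K L) * 1)) := by
    simp only [Phi, EE, Matrix.mul_smul, Matrix.smul_mul, trace_smul, smul_eq_mul,
      Matrix.mul_assoc, Matrix.mul_one]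
    ring
  have h1 := con_L t L M 1
  have h2 := (((((hc.mul (con_M' t L M)).mul (con_EE t hc (XX_psd M K))).mul (con_L t K L)).mul
    hc).mul (con_Rz t (XX_psd K L))) 1
  have := two_tr_le (t • (L * Rz t (XX L M)) * 1)
    (D * t • (Rz t (XX L M) * M) * EE t D (XX M K) * t • (K * Rz t (XX K L)) * D *
        Rz t (XX K L) * 1)
  rw [e]; linarith

section
open scoped Matrix.Norms.Operator

theorem hasDerivAt_Rz (t : ℝ) {X : Matrix ι ι ℝ} (hX : X.PosSemidef) :
    HasDerivAt (fun s => Rz s X) ((-2 : ℝ) • t • (Rz t X * X * Rz t X)) t := by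
  have h1 := hasFDerivAt_ringInverse (𝕜 := ℝ) (unit_aux t hX).unit
  have h2 : HasDerivAt (fun s : ℝ => (1 : Matrix ι ι ℝ) + s ^ 2 • X) ((2 * t) • X) t := by
    exact (((hasDerivAt_pow 2 t).smul_const X).const_add (1 : Matrix ι ι ℝ)).congr_deriv (by simp)
  have h3 := h1.comp_hasDerivAt t h2
  have e : (((unit_aux t hX).unit⁻¹ : (Matrix ι ι ℝ)ˣ) : Matrix ι ι ℝ) = Rz t X := by
    rw [Rz, Matrix.coe_units_inv]; rfl
  have e1 : (fun s => Rz s X) = Ring.inverse ∘ fun s : ℝ => (1 : Matrix ι ι ℝ) + s ^ 2 • X := by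
    funext s; simp [Rz, nonsing_inv_eq_ringInverse]
  rw [e1]
  exact h3.congr_deriv (by simp [e, smul_smul])

theorem hasDerivAt_EE (t : ℝ) (D : Matrix ι ι ℝ) {X : Matrix ι ι ℝ} (hX : X.PosSemidef) :
    HasDerivAt (fun s => EE s D X) (dE t D X) t := by
  have h := ((hasDerivAt_Rz t hX).mul_const D).mul (hasDerivAt_Rz t hX)
  exact h.congr_deriv (by simp only [dE, smul_add, Matrix.smul_mul, Matrix.mul_smul])

theorem hasDerivAt_Phi (t : ℝ) (D L M K : Matrix ι ι ℝ) :
    HasDerivAt (fun s => Phi s D L M K) (dPhi t D L M K + dPhi t D M K L + dPhi t D K L M) t := by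
  have h := (((((hasDerivAt_EE t D (XX_psd L M)).const_mul L).mul_const M).mul
    (hasDerivAt_EE t D (XX_psd M K))).mul_const K).mul (hasDerivAt_EE t D (XX_psd K L))
  have h2 := (LinearMap.toContinuousLinearMap (traceLinearMap ι ℝ ℝ)).hasFDerivAt.comp_hasDerivAt
    t h
  refine h2.congr_deriv ?_
  change trace _ = _
  simp only [Pi.mul_apply, Matrix.add_mul, trace_add, dPhi]
  have e1 : trace (L * EE t D (XX L M) * M * dE t D (XX M K) * K * EE t D (XX K L)) =
      trace (M * dE t D (XX M K) * K * EE t D (XX K L) * L * EE t D (XX L M)) := by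
    rw [Matrix.mul_assoc _ L, trace_mul_comm _ (L * _)]; simp only [Matrix.mul_assoc]
  have e2 : trace (L * EE t D (XX L M) * M * EE t D (XX M K) * K * dE t D (XX K L)) =
      trace (K * dE t D (XX K L) * L * EE t D (XX L M) * M * EE t D (XX M K)) := by
    rw [Matrix.mul_assoc _ K, trace_mul_comm _ (K * _)]; simp only [Matrix.mul_assoc]
  rw [e1, e2]

end

end Vale.Agent.P075
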