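import Vale.Agent.P075.Defs
import Vale.Agent.P075.Disc

namespace Vale.Agent.P075

open MeasureTheory Finset Filter Topology

/-- grid cell -/
def cell (δ : ℝ) (a : ℕ) : Set ℝ := Set.Ico (δ * a) (δ * ((a + 1 : ℕ) : ℝ))

theorem mem_Ico_floor {δ : ℝ} (hδ : 0 < δ) (p q : ℕ) (x : ℝ) :
    x ∈ Set.Ico (δ * p) (δ * q) ↔ 0 ≤ x ∧ p ≤ ⌊x / δ⌋₊ ∧ ⌊x / δ⌋₊ < q := by
  rw [Set.mem_Ico]
  constructor
  · rintro ⟨h1, h2⟩
    have h0 : 0 ≤ x := le_trans (by positivity) h1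
    have h0' : 0 ≤ x / δ := by positivity
    rw [Nat.le_floor_iff h0', Nat.floor_lt h0', le_div_iff₀ hδ, div_lt_iff₀ hδ]
    exact ⟨h0, by linarith, by linarith⟩
  · rintro ⟨h0, h1, h2⟩
    have h0' : 0 ≤ x / δ := by positivity
    rw [Nat.le_floor_iff h0', le_div_iff₀ hδ] at h1
    rw [Nat.floor_lt h0', div_lt_iff₀ hδ] at h2
    exact ⟨by linarith, by linarith⟩

theorem mem_cell {δ : ℝ} (hδ : 0 < δ) (a : ℕ) (x : ℝ) :
    x ∈ cell δ a ↔ 0 ≤ x ∧ ⌊x / δ⌋₊ = a := by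
  rw [cell, mem_Ico_floor hδ]
  exact and_congr_right fun _ => by omega

theorem sum_cell {δ : ℝ} (hδ : 0 < δ) (M : ℕ) (f : ℕ → ℝ) (x : ℝ) :
    ∑ a ∈ range M, f a * (cell δ a).indicator (fun _ => (1 : ℝ)) x =
      if 0 ≤ x ∧ ⌊x / δ⌋₊ < M then f ⌊x / δ⌋₊ else 0 := by
  classical
  simp only [Set.indicator_apply, mem_cell hδ]
  by_cases h : 0 ≤ x
  · simp [h]
  · simp [h]

theorem haar_eq (k0 : ℤ) (i N n : ℕ) (hi : i < N) (hn : n < 2 ^ (N - (i + 1))) (x : ℝ) :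
    haar (k0 + (i + 1 : ℕ)) n x =
      ∑ a ∈ range (2 ^ N), hd i n a * (cell ((2 : ℝ) ^ k0) a).indicator (fun _ => (1 : ℝ)) x := by
  classical
  have hδ : (0 : ℝ) < 2 ^ k0 := by positivity
  have e0 : (2 : ℝ) ^ (k0 + (i + 1 : ℕ)) = 2 ^ k0 * (2 ^ i * 2) := by
    rw [zpow_add₀ (by norm_num), zpow_natCast, pow_succ]
  have e1 : (2 : ℝ) ^ (k0 + (i + 1 : ℕ)) * n = 2 ^ k0 * ((2 * n * 2 ^ i : ℕ) : ℝ) := by
    rw [e0]; push_cast; ring
  have e2 : (2 : ℝ) ^ (k0 + (i + 1 : ℕ)) * (n + 1 / 2) =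
      2 ^ k0 * (((2 * n + 1) * 2 ^ i : ℕ) : ℝ) := by rw [e0]; push_cast; ring
  have e3 : (2 : ℝ) ^ (k0 + (i + 1 : ℕ)) * (n + 1) =
      2 ^ k0 * (((2 * n + 1 + 1) * 2 ^ i : ℕ) : ℝ) := by rw [e0]; push_cast; ring
  rw [sum_cell hδ, haar, e1, e2, e3]
  simp only [Set.indicator_apply, mem_Ico_floor hδ]
  generalize ⌊x / 2 ^ k0⌋₊ = a
  have hp : 0 < 2 ^ i := by positivity
  simp only [← Nat.le_div_iff_mul_le hp, ← Nat.div_lt_iff_lt_mul hp, hd, pp, qq, pow_succ,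
    ← Nat.div_div_eq_div_mul, Bool.toNat_false, Bool.toNat_true]
  have hM : a < 2 ^ N ↔ a / 2 ^ i < 2 * 2 ^ (N - (i + 1)) := by
    rw [Nat.div_lt_iff_lt_mul hp, ← pow_succ', ← pow_add, show N - (i + 1) + 1 + i = N by omega]
  simp only [hM]
  generalize a / 2 ^ i = q
  by_cases h : 0 ≤ x
  · simp only [h, true_and]
    split_ifs <;> first | omega | simp
  · simp [h]

theorem haar_eq_zero {k : ℤ} {n : ℕ} {x : ℝ} (h : x ∉ dyad k n) : haar k n x = 0 := by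
  have hp : (0 : ℝ) < 2 ^ k := by positivity
  rw [haar, Set.indicator_of_notMem, Set.indicator_of_notMem, sub_zero]
  · exact fun h' => h ⟨le_trans (by nlinarith) h'.1, h'.2⟩
  · exact fun h' => h ⟨h'.1, lt_of_lt_of_le h'.2 (by nlinarith)⟩

theorem meas_cell (δ : ℝ) (a : ℕ) : MeasurableSet (cell δ a) := measurableSet_Ico

theorem vol_cell (δ : ℝ) (a : ℕ) : volume (cell δ a) ≠ ⊤ := measure_Ico_lt_top.ne

theorem shift_cell (δ : ℝ) (a : ℕ) (x : ℝ) : x + δ * a ∈ cell δ a ↔ x ∈ cell δ 0 := by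
  simp only [cell, Set.mem_Ico]; push_cast
  constructor <;> rintro ⟨h1, h2⟩ <;> constructor <;> linarith

theorem int_cell3 (δ : ℝ) (G : ℝ × ℝ × ℝ → ℝ) (a b c : ℕ) :
    ∫ x in cell δ a ×ˢ cell δ b ×ˢ cell δ c, G x =
      ∫ u in cell δ 0 ×ˢ cell δ 0 ×ˢ cell δ 0, G (u + (δ * a, δ * b, δ * c)) := by
  have : (volume : Measure (ℝ × ℝ × ℝ)).IsAddRightInvariant :=
    Measure.prod.instIsAddRightInvariant
  rw [← (measurePreserving_add_right volume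
    ((δ * a, δ * b, δ * c) : ℝ × ℝ × ℝ)).setIntegral_preimage_emb (measurableEmbedding_addRight _)]
  congr 2
  ext x; simp [shift_cell]

theorem int_cell2 (δ : ℝ) (G : ℝ × ℝ → ℝ) (a b : ℕ) :
    ∫ x in cell δ a ×ˢ cell δ b, G x = ∫ u in cell δ 0 ×ˢ cell δ 0, G (u + (δ * a, δ * b)) := by
  rw [← (measurePreserving_add_right volume
    ((δ * a, δ * b) : ℝ × ℝ)).setIntegral_preimage_emb (measurableEmbedding_addRight _)]
  congr 2
  ext x; simp [shift_cell]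

theorem vol3 (s t r : Set ℝ) : (volume : Measure (ℝ × ℝ × ℝ)).restrict (s ×ˢ t ×ˢ r) =
    (volume.restrict s).prod ((volume.restrict t).prod (volume.restrict r)) := by
  rw [Measure.prod_restrict, Measure.prod_restrict]; rfl

theorem vol2 (s t : Set ℝ) : (volume : Measure (ℝ × ℝ)).restrict (s ×ˢ t) =
    (volume.restrict s).prod (volume.restrict t) := by
  rw [Measure.prod_restrict]; rfl

theorem fin3 (δ : ℝ) (a b c : ℕ) :
    (volume : Measure (ℝ × ℝ × ℝ)) (cell δ a ×ˢ cell δ b ×ˢ cell δ c) ≠ ⊤ := by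
  rw [Measure.volume_eq_prod, Measure.prod_prod, Measure.volume_eq_prod, Measure.prod_prod]
  exact ENNReal.mul_ne_top (vol_cell _ _) (ENNReal.mul_ne_top (vol_cell _ _) (vol_cell _ _))

theorem intOn3 {G : ℝ × ℝ × ℝ → ℝ} (hG : Measurable G) {B : ℝ} (hB : ∀ x, |G x| ≤ B) (δ : ℝ)
    (a b c : ℕ) : IntegrableOn G (cell δ a ×ˢ cell δ b ×ˢ cell δ c) :=
  Measure.integrableOn_of_bounded (fin3 δ a b c) hG.aestronglyMeasurable
    (Eventually.of_forall hB)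

theorem real_cell {δ : ℝ} (hδ : 0 < δ) : (volume.restrict (cell δ 0)).real Set.univ = δ := by
  simp [cell, Measure.real, hδ.le]

theorem marg {δ : ℝ} (hδ : 0 < δ) (φ : ℝ × ℝ → ℝ) :
    (∫ u in cell δ 0 ×ˢ cell δ 0 ×ˢ cell δ 0, φ (u.1, u.2.1) =
      δ * ∫ v in cell δ 0 ×ˢ cell δ 0, φ v) ∧
    (∫ u in cell δ 0 ×ˢ cell δ 0 ×ˢ cell δ 0, φ (u.2.1, u.2.2) =
      δ * ∫ v in cell δ 0 ×ˢ cell δ 0, φ v) ∧
    (∫ u in cell δ 0 ×ˢ cell δ 0 ×ˢ cell δ 0, φ (u.2.2, u.1) =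
      δ * ∫ v in cell δ 0 ×ˢ cell δ 0, φ v) := by
  rw [vol3, vol2]
  have hr := real_cell hδ
  set μ := (volume : Measure ℝ).restrict (cell δ 0)
  refine ⟨?_, ?_, ?_⟩
  · rw [← (measurePreserving_prodAssoc μ μ μ).integral_comp']
    exact (integral_fun_fst φ).trans (by rw [hr]; rfl)
  · exact (integral_fun_snd φ).trans (by rw [hr]; rfl)
  · rw [← integral_prod_swap]
    have := (measurePreserving_prodAssoc μ μ μ).integral_comp' fun u => φ u.2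
    exact this.trans ((integral_fun_snd φ).trans (by rw [hr]; rfl))

theorem cells_le {δ : ℝ} (hδ : 0 < δ) (M : ℕ) {φ : ℝ × ℝ → ℝ} (hφ : Integrable φ)
    (h0 : ∀ p, 0 ≤ φ p) :
    ∑ a ∈ range M, ∑ b ∈ range M, ∫ u in cell δ 0 ×ˢ cell δ 0, φ (u + (δ * a, δ * b)) ≤
      ∫ p in Set.Ici (0 : ℝ) ×ˢ Set.Ici (0 : ℝ), φ p := by
  simp only [← int_cell2]
  have hm : ∀ a b, MeasurableSet (cell δ a ×ˢ cell δ b) := fun a b =>
    (meas_cell δ a).prod (meas_cell δ b)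
  simp only [← integral_indicator (hm _ _)]
  rw [← integral_indicator (measurableSet_Ici.prod measurableSet_Ici)]
  simp only [← integral_finsetSum _ fun b _ => hφ.indicator (hm _ b)]
  rw [← integral_finsetSum _ fun a _ => integrable_finsetSum _ fun b _ => hφ.indicator (hm a b)]
  refine integral_mono (integrable_finsetSum _ fun a _ => integrable_finsetSum _ fun b _ =>
    hφ.indicator (hm a b)) (hφ.indicator (measurableSet_Ici.prod measurableSet_Ici)) fun p => ?_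
  have e : ∀ a b, (cell δ a ×ˢ cell δ b).indicator φ p =
      1 * (cell δ a).indicator (fun _ => (1 : ℝ)) p.1 *
        (φ p * (cell δ b).indicator (fun _ => (1 : ℝ)) p.2) := by
    intro a b
    by_cases h1 : p.1 ∈ cell δ a <;> by_cases h2 : p.2 ∈ cell δ b <;>
      simp [Set.indicator, h1, h2]
  simp only [e, ← mul_sum, ← sum_mul, sum_cell hδ M (fun _ => 1), sum_cell hδ M (fun _ => φ p)]
  have := h0 p
  simp only [Set.indicator_apply, Set.mem_prod, Set.mem_Ici]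
  split_ifs <;> first | linarith | tauto

theorem ind3 (s t r : Set ℝ) (G : ℝ × ℝ × ℝ → ℝ) (x : ℝ × ℝ × ℝ) :
    (s ×ˢ t ×ˢ r).indicator G x = G x * (s.indicator (fun _ => (1 : ℝ)) x.1 *
      t.indicator (fun _ => (1 : ℝ)) x.2.1 * r.indicator (fun _ => (1 : ℝ)) x.2.2) := by
  by_cases h1 : x.1 ∈ s <;> by_cases h2 : x.2.1 ∈ t <;> by_cases h3 : x.2.2 ∈ r <;>
    simp [Set.indicator, h1, h2, h3]

theorem local_eq {G : ℝ × ℝ × ℝ → ℝ} (hG : Measurable G) {B : ℝ} (hB : ∀ x, |G x| ≤ B)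
    (k0 : ℤ) (i N a b c : ℕ) (hi : i < N) (ha : a < 2 ^ (N - (i + 1)))
    (hb : b < 2 ^ (N - (i + 1))) (hc : c < 2 ^ (N - (i + 1))) :
    ∫ x in dyad (k0 + (i + 1 : ℕ)) a ×ˢ dyad (k0 + (i + 1 : ℕ)) b ×ˢ dyad (k0 + (i + 1 : ℕ)) c,
      G x * (haar (k0 + (i + 1 : ℕ)) a x.1 * haar (k0 + (i + 1 : ℕ)) b x.2.1 *
        haar (k0 + (i + 1 : ℕ)) c x.2.2) =
    ∑ x ∈ range (2 ^ N), ∑ y ∈ range (2 ^ N), ∑ z ∈ range (2 ^ N), hd i a x * hd i b y * hd i c z *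
      ∫ u in cell (2 ^ k0) 0 ×ˢ cell (2 ^ k0) 0 ×ˢ cell (2 ^ k0) 0,
        G (u + ((2 : ℝ) ^ k0 * x, (2 : ℝ) ^ k0 * y, (2 : ℝ) ^ k0 * z)) := by
  rw [setIntegral_eq_integral_of_forall_compl_eq_zero (fun x hx => by
    simp only [Set.mem_prod, not_and_or] at hx
    rcases hx with h | h | h <;> simp only [haar_eq_zero h, mul_zero, zero_mul])]
  have hm : ∀ x y z, MeasurableSet (cell (2 ^ k0) x ×ˢ cell (2 ^ k0) y ×ˢ cell (2 ^ k0) z) :=
    fun x y z => (meas_cell _ x).prod ((meas_cell _ y).prod (meas_cell _ z))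
  have hi' : ∀ x y z, Integrable fun u => hd i a x * hd i b y * hd i c z *
      (cell (2 ^ k0) x ×ˢ cell (2 ^ k0) y ×ˢ cell (2 ^ k0) z).indicator G u := fun x y z =>
    ((integrable_indicator_iff (hm x y z)).2 (intOn3 hG hB _ x y z)).const_mul _
  simp only [← int_cell3]
  simp only [← integral_indicator (hm _ _ _), ← integral_const_mul]
  simp only [← integral_finsetSum _ fun z _ => hi' _ _ z]
  simp only [← integral_finsetSum _ fun y _ => integrable_finsetSum _ fun z _ => hi' _ y z]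
  rw [← integral_finsetSum _ fun x _ => integrable_finsetSum _ fun y _ =>
    integrable_finsetSum _ fun z _ => hi' x y z]
  congr 1
  funext u
  rw [haar_eq k0 i N a hi ha, haar_eq k0 i N b hi hb, haar_eq k0 i N c hi hc, sum_mul_sum,
    sum_mul, mul_sum]
  refine sum_congr rfl fun x _ => ?_
  rw [sum_mul_sum, mul_sum]
  refine sum_congr rfl fun y _ => ?_
  rw [mul_sum]
  refine sum_congr rfl fun z _ => ?_
  rw [ind3]; ring

theorem local_zero {F₀ F₁ F₂ : ℝ × ℝ → ℝ} {R : ℝ} (h0 : ∀ p, R ≤ ‖p‖ → F₀ p = 0)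
    (k : ℤ) (a b c : ℕ) (h : R ≤ 2 ^ k * a ∨ R ≤ 2 ^ k * b) :
    localForm k (a, b, c) F₀ F₁ F₂ = 0 := by
  rw [localForm, setIntegral_eq_zero_of_forall_eq_zero, mul_zero]
  rintro x ⟨h1, h2, -⟩
  rw [h0, zero_mul, zero_mul, zero_mul]
  rcases h with h | h
  · exact (h.trans h1.1).trans ((le_abs_self _).trans (norm_fst_le (x.1, x.2.1)))
  · exact (h.trans h2.1).trans ((le_abs_self _).trans (norm_snd_le (x.1, x.2.1)))

/-- parametrisation of the XOR triples -/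
def xorEquiv : ℕ × ℕ ≃ xorTriples where
  toFun p := ⟨(p.1, p.2, p.1 ^^^ p.2), by simp [xorTriples]⟩
  invFun I := (I.1.1, I.1.2.1)
  left_inv _ := rfl
  right_inv := by
    rintro ⟨⟨a, b, c⟩, h⟩
    have h' : a ^^^ b = c := Nat.xor_eq_zero_iff.1 h
    simp [h']

theorem hasSum_local {F₀ F₁ F₂ : ℝ × ℝ → ℝ} {R : ℝ} (h0 : ∀ p, R ≤ ‖p‖ → F₀ p = 0) (k : ℤ) (M : ℕ)
    (hM : R ≤ 2 ^ k * M) : HasSum (fun I : xorTriples => localForm k I F₀ F₁ F₂)
      (∑ a ∈ range M, ∑ b ∈ range M, localForm k (a, b, a ^^^ b) F₀ F₁ F₂) := by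
  rw [← xorEquiv.hasSum_iff, ← sum_product']
  refine hasSum_sum_of_ne_finset_zero fun p hp => ?_
  refine local_zero h0 k _ _ _ ?_
  have hk : (0 : ℝ) < 2 ^ k := by positivity
  simp only [mem_product, mem_range, not_and_or, not_lt] at hp
  rcases hp with h | h
  · exact Or.inl (hM.trans (by gcongr))
  · exact Or.inr (hM.trans (by gcongr))

theorem Admissible.integrable {F : ℝ × ℝ → ℝ} (h : Admissible F) :
    Integrable fun p => |F p| ^ 3 := by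
  obtain ⟨h1, ⟨B, hB⟩, h3⟩ := h
  refine (integrableOn_iff_integrable_of_support_subset (s := tsupport F) fun p hp => ?_).1
    (Measure.integrableOn_of_bounded (M := B ^ 3) h3.isCompact.measure_lt_top.ne
      (by fun_prop) (Eventually.of_forall fun p => ?_))
  · exact subset_tsupport _ fun h => hp (by simp [h])
  · rw [Real.norm_eq_abs, abs_of_nonneg (by positivity)]
    exact pow_le_pow_left₀ (abs_nonneg _) (hB p) 3

theorem exists_scale (S : Finset ℤ) (R : ℝ) : ∃ (k0 : ℤ) (N : ℕ),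
    (∀ k ∈ S, ∃ i < N, k = k0 + (i + 1 : ℕ)) ∧ R ≤ 2 ^ k0 * 2 ^ N := by
  obtain ⟨l, hl⟩ := S.bddBelow
  obtain ⟨u, hu⟩ := S.bddAbove
  obtain ⟨n, hn⟩ := pow_unbounded_of_one_lt (R / 2 ^ (l - 1)) (show (1 : ℝ) < 2 by norm_num)
  refine ⟨l - 1, n + (u - l + 1).toNat, fun k hk => ⟨(k - l).toNat, ?_, ?_⟩, ?_⟩
  · have := hl hk; have := hu hk; omega
  · have := hl hk; omega
  · rw [div_lt_iff₀ (by positivity), mul_comm] at hn
    refine hn.le.trans ?_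
    gcongr
    · norm_num
    · omega

theorem additive (S : Finset ℤ) (ε : ℤ → ℝ) (hε : ∀ k, |ε k| ≤ 1) {F₀ F₁ F₂ : ℝ × ℝ → ℝ}
    (h0 : Admissible F₀) (h1 : Admissible F₁) (h2 : Admissible F₂) :
    dyadicForm S ε F₀ F₁ F₂ ≤ 96 * ((∫ p in Set.Ici (0 : ℝ) ×ˢ Set.Ici (0 : ℝ), |F₀ p| ^ 3) +
      (∫ p in Set.Ici (0 : ℝ) ×ˢ Set.Ici (0 : ℝ), |F₁ p| ^ 3) +
      ∫ p in Set.Ici (0 : ℝ) ×ˢ Set.Ici (0 : ℝ), |F₂ p| ^ 3) := by
  classical
  obtain ⟨R, -, hR⟩ := h0.2.2.exists_pos_le_norm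
  obtain ⟨k0, N, hS, hN⟩ := exists_scale S R
  obtain ⟨B0, hB0⟩ := h0.2.1
  obtain ⟨B1, hB1⟩ := h1.2.1
  obtain ⟨B2, hB2⟩ := h2.2.1
  have m0 := h0.1
  have m1 := h1.1
  have m2 := h2.1
  obtain ⟨δ, hδe⟩ : ∃ δ : ℝ, δ = 2 ^ k0 := ⟨_, rfl⟩
  have hδ : 0 < δ := by rw [hδe]; positivity
  let G : ℝ × ℝ × ℝ → ℝ := fun x => F₀ (x.1, x.2.1) * F₁ (x.2.1, x.2.2) * F₂ (x.2.2, x.1)
  have hG : Measurable G := by fun_prop
  have hB : ∀ x, |G x| ≤ B0 * B1 * B2 := fun x => by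
    simp only [G, abs_mul]
    have := (abs_nonneg _).trans (hB0 0)
    have := (abs_nonneg _).trans (hB1 0)
    gcongr <;> simp [hB0, hB1, hB2]
  let e : ℕ → ℝ := fun i => if k0 + (i + 1 : ℕ) ∈ S then ε (k0 + (i + 1 : ℕ)) else 0
  have he : ∀ i, |e i| ≤ 1 := fun i => by
    simp only [e]; split_ifs
    · exact hε _
    · simp
  let C := cell δ 0 ×ˢ cell δ 0 ×ˢ cell δ 0
  let f : (ℝ × ℝ → ℝ) → ℝ → ℝ → ℕ → ℕ → ℝ := fun F s t a b => F ((s, t) + (δ * a, δ * b))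
  have hint : ∀ x y z : ℕ, IntegrableOn (fun u : ℝ × ℝ × ℝ =>
      f F₀ u.1 u.2.1 x y * f F₁ u.2.1 u.2.2 y z * f F₂ u.2.2 u.1 z x) C :=
    fun x y z => intOn3 (G := fun u => G (u + (δ * x, δ * y, δ * z))) (by fun_prop)
      (fun _ => hB _) δ 0 0 0
  have hell : ∀ i a b c, IntegrableOn (fun u : ℝ × ℝ × ℝ => ell (2 ^ N) i (f F₀ u.1 u.2.1)
      (f F₁ u.2.1 u.2.2) (f F₂ u.2.2 u.1) a b c) C := fun i a b c =>
    (integrable_finsetSum _ fun x _ => integrable_finsetSum _ fun y _ =>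
      integrable_finsetSum _ fun z _ => (hint x y z).const_mul _).const_mul _
  have e1 : ∀ i < N, ∀ a < 2 ^ (N - (i + 1)), ∀ b < 2 ^ (N - (i + 1)),
      δ * localForm (k0 + (i + 1 : ℕ)) (a, b, a ^^^ b) F₀ F₁ F₂ =
        ∫ u in C, ell (2 ^ N) i (f F₀ u.1 u.2.1) (f F₁ u.2.1 u.2.2) (f F₂ u.2.2 u.1)
          a b (a ^^^ b) := by
    intro i hi a ha b hb
    have := local_eq hG hB k0 i N a b (a ^^^ b) hi ha hb (Nat.xor_lt_two_pow ha hb)
    rw [localForm]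
    simp only [G] at this
    rw [this, ← hδe, ← mul_assoc]
    simp only [ell]
    rw [integral_const_mul, integral_finsetSum _ fun x _ => integrable_finsetSum _ fun y _ =>
      integrable_finsetSum _ fun z _ => (hint x y z).const_mul _]
    congr 1
    · rw [hδe, ← zpow_add₀ (by norm_num), ← zpow_natCast, ← zpow_neg]; congr 1; ring
    refine sum_congr rfl fun x _ => ?_
    rw [integral_finsetSum _ fun y _ =>
      integrable_finsetSum _ fun z _ => (hint x y z).const_mul _]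
    refine sum_congr rfl fun y _ => ?_
    rw [integral_finsetSum _ fun z _ => (hint x y z).const_mul _]
    refine sum_congr rfl fun z _ => ?_
    rw [integral_const_mul]; rfl
  have e2 : δ * dyadicForm S ε F₀ F₁ F₂ = ∫ u in C, ∑ i ∈ range N, e i *
      ∑ a ∈ range (2 ^ (N - (i + 1))), ∑ b ∈ range (2 ^ (N - (i + 1))),
        ell (2 ^ N) i (f F₀ u.1 u.2.1) (f F₁ u.2.1 u.2.2) (f F₂ u.2.2 u.1) a b (a ^^^ b) := by
    rw [integral_finsetSum _ fun i _ => (integrable_finsetSum _ fun a _ =>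
      integrable_finsetSum _ fun b _ => hell i a b _).const_mul _]
    have e3 : dyadicForm S ε F₀ F₁ F₂ = ∑ i ∈ range N, e i *
        ∑' I : xorTriples, localForm (k0 + (i + 1 : ℕ)) I F₀ F₁ F₂ := by
      simp only [e, ite_mul, zero_mul]
      rw [← sum_filter, dyadicForm]
      symm
      refine sum_bij (fun i _ => k0 + (i + 1 : ℕ)) (fun i hi => (mem_filter.1 hi).2)
        (fun i _ j _ h => by omega) (fun k hk => ?_) fun _ _ => rfl
      obtain ⟨i, hi, rfl⟩ := hS k hk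
      exact ⟨i, mem_filter.2 ⟨mem_range.2 hi, hk⟩, rfl⟩
    rw [e3, mul_sum]
    refine sum_congr rfl fun i hi => ?_
    have hi := mem_range.1 hi
    rw [(hasSum_local hR _ (2 ^ (N - (i + 1))) (by
      refine hN.trans (le_of_eq ?_)
      rw [zpow_add₀ (by norm_num), zpow_natCast, mul_assoc]
      push_cast
      rw [← pow_add, show i + 1 + (N - (i + 1)) = N by omega])).tsum_eq, integral_const_mul,
      integral_finsetSum _ fun a _ => integrable_finsetSum _ fun b _ => hell i a b _,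
      mul_left_comm, mul_sum]
    congr 1
    refine sum_congr rfl fun a ha => ?_
    rw [integral_finsetSum _ fun b _ => hell i a b _, mul_sum]
    exact sum_congr rfl fun b hb => e1 i hi a (mem_range.1 ha) b (mem_range.1 hb)
  have cube : ∀ {F : ℝ × ℝ → ℝ} {B : ℝ}, (∀ p, |F p| ≤ B) → ∀ p, |(|F p| ^ 3)| ≤ B ^ 3 :=
    fun hB p => by
      rw [abs_of_nonneg (by positivity)]; exact pow_le_pow_left₀ (abs_nonneg _) (hB p) 3
  have i0 : ∀ a b : ℕ, IntegrableOn (fun u : ℝ × ℝ × ℝ => |f F₀ u.1 u.2.1 a b| ^ 3) C :=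
    fun a b => intOn3 (by fun_prop) (fun _ => cube hB0 _) δ 0 0 0
  have i1 : ∀ a b : ℕ, IntegrableOn (fun u : ℝ × ℝ × ℝ => |f F₁ u.2.1 u.2.2 a b| ^ 3) C :=
    fun a b => intOn3 (by fun_prop) (fun _ => cube hB1 _) δ 0 0 0
  have i2 : ∀ a b : ℕ, IntegrableOn (fun u : ℝ × ℝ × ℝ => |f F₂ u.2.2 u.1 a b| ^ 3) C :=
    fun a b => intOn3 (by fun_prop) (fun _ => cube hB2 _) δ 0 0 0
  have i01 : ∀ a b : ℕ, IntegrableOn (fun u : ℝ × ℝ × ℝ => |f F₀ u.1 u.2.1 a b| ^ 3 +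
      |f F₁ u.2.1 u.2.2 a b| ^ 3) C := fun a b => (i0 a b).add (i1 a b)
  have i012 : ∀ a b : ℕ, IntegrableOn (fun u : ℝ × ℝ × ℝ => |f F₀ u.1 u.2.1 a b| ^ 3 +
      |f F₁ u.2.1 u.2.2 a b| ^ 3 + |f F₂ u.2.2 u.1 a b| ^ 3) C := fun a b => (i01 a b).add (i2 a b)
  have e4 : δ * dyadicForm S ε F₀ F₁ F₂ ≤ ∫ u in C, 96 * ∑ a ∈ range (2 ^ N),
      ∑ b ∈ range (2 ^ N), (|f F₀ u.1 u.2.1 a b| ^ 3 + |f F₁ u.2.1 u.2.2 a b| ^ 3 +
        |f F₂ u.2.2 u.1 a b| ^ 3) := by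
    rw [e2]
    exact integral_mono (integrable_finsetSum _ fun i _ => (integrable_finsetSum _ fun a _ =>
      integrable_finsetSum _ fun b _ => hell i a b _).const_mul _)
      ((integrable_finsetSum _ fun a _ => integrable_finsetSum _ fun b _ =>
        i012 a b).const_mul _) fun u => disc N _ _ _ e he
  rw [integral_const_mul, integral_finsetSum _ fun a _ => integrable_finsetSum _ fun b _ =>
    i012 a b] at e4
  have e5 : ∀ a : ℕ, ∫ u in C, ∑ b ∈ range (2 ^ N), (|f F₀ u.1 u.2.1 a b| ^ 3 +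
      |f F₁ u.2.1 u.2.2 a b| ^ 3 + |f F₂ u.2.2 u.1 a b| ^ 3) = δ * ∑ b ∈ range (2 ^ N),
        ((∫ v in cell δ 0 ×ˢ cell δ 0, |F₀ (v + (δ * a, δ * b))| ^ 3) +
        (∫ v in cell δ 0 ×ˢ cell δ 0, |F₁ (v + (δ * a, δ * b))| ^ 3) +
        ∫ v in cell δ 0 ×ˢ cell δ 0, |F₂ (v + (δ * a, δ * b))| ^ 3) := by
    intro a
    rw [integral_finsetSum _ fun b _ => i012 a b, mul_sum]
    refine sum_congr rfl fun b _ => ?_
    rw [integral_add (i01 a b) (i2 a b), integral_add (i0 a b) (i1 a b), mul_add,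
      mul_add, ← (marg hδ _).1, ← (marg hδ fun v => |F₁ (v + (δ * a, δ * b))| ^ 3).2.1,
      ← (marg hδ fun v => |F₂ (v + (δ * a, δ * b))| ^ 3).2.2]
  simp only [e5] at e4
  simp only [← mul_sum, sum_add_distrib] at e4
  have c0 := cells_le hδ (2 ^ N) h0.integrable fun p => by positivity
  have c1 := cells_le hδ (2 ^ N) h1.integrable fun p => by positivity
  have c2 := cells_le hδ (2 ^ N) h2.integrable fun p => by positivity
  rw [mul_left_comm] at e4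
  have := le_of_mul_le_mul_left e4 hδ
  linarith

theorem Admissible.smul {F : ℝ × ℝ → ℝ} (h : Admissible F) (c : ℝ) :
    Admissible fun p => c * F p := by
  obtain ⟨h1, ⟨B, hB⟩, h3⟩ := h
  refine ⟨by fun_prop, ⟨|c| * B, fun p => ?_⟩, h3.mul_left⟩
  rw [abs_mul]; exact mul_le_mul_of_nonneg_left (hB p) (abs_nonneg _)

theorem form_smul (S : Finset ℤ) (ε : ℤ → ℝ) (F₀ F₁ F₂ : ℝ × ℝ → ℝ) (a b c : ℝ) :
    dyadicForm S ε (fun p => a * F₀ p) (fun p => b * F₁ p) (fun p => c * F₂ p) =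
      a * b * c * dyadicForm S ε F₀ F₁ F₂ := by
  have : ∀ k I, localForm k I (fun p => a * F₀ p) (fun p => b * F₁ p) (fun p => c * F₂ p) =
      a * b * c * localForm k I F₀ F₁ F₂ := by
    intro k I
    rw [localForm, localForm, mul_left_comm, ← integral_const_mul (a * b * c)]
    congr 2
    funext x; ring
  simp only [dyadicForm, this, tsum_mul_left, mul_sum]
  exact sum_congr rfl fun k _ => by ring

theorem form_neg (S : Finset ℤ) (ε : ℤ → ℝ) (F₀ F₁ F₂ : ℝ × ℝ → ℝ) :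
    dyadicForm S (fun k => -ε k) F₀ F₁ F₂ = -dyadicForm S ε F₀ F₁ F₂ := by
  simp [dyadicForm]

theorem scaled {F : ℝ × ℝ → ℝ} {η : ℝ} (hη : 0 < η) :
    ∫ p in Set.Ici (0 : ℝ) ×ˢ Set.Ici (0 : ℝ), |(normL3 F + η)⁻¹ * F p| ^ 3 ≤ 1 := by
  have h0 : 0 ≤ ∫ p in Set.Ici (0 : ℝ) ×ˢ Set.Ici (0 : ℝ), |F p| ^ 3 :=
    integral_nonneg fun p => by positivity
  have h1 : 0 ≤ normL3 F := Real.rpow_nonneg h0 _
  have h2 : normL3 F ^ 3 = ∫ p in Set.Ici (0 : ℝ) ×ˢ Set.Ici (0 : ℝ), |F p| ^ 3 := by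
    rw [normL3, ← Real.rpow_natCast, ← Real.rpow_mul h0]; norm_num
  simp only [abs_mul, mul_pow]
  rw [integral_const_mul, ← h2, ← mul_pow, abs_of_pos (by positivity)]
  refine pow_le_one₀ (by positivity) ?_
  rw [inv_mul_le_iff₀ (by positivity)]; linarith

theorem normL3_nonneg (F : ℝ × ℝ → ℝ) : 0 ≤ normL3 F :=
  Real.rpow_nonneg (integral_nonneg fun p => by positivity) _

theorem one_side (S : Finset ℤ) (ε : ℤ → ℝ) (hε : ∀ k, |ε k| ≤ 1) {F₀ F₁ F₂ : ℝ × ℝ → ℝ}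
    (h0 : Admissible F₀) (h1 : Admissible F₁) (h2 : Admissible F₂) :
    dyadicForm S ε F₀ F₁ F₂ ≤ 288 * (normL3 F₀ * normL3 F₁ * normL3 F₂) := by
  have n0 := normL3_nonneg F₀
  have n1 := normL3_nonneg F₁
  have n2 := normL3_nonneg F₂
  have key : ∀ η : ℝ, 0 < η → dyadicForm S ε F₀ F₁ F₂ ≤
      288 * ((normL3 F₀ + η) * (normL3 F₁ + η) * (normL3 F₂ + η)) := by
    intro η hη
    have h := additive S ε hε (h0.smul (normL3 F₀ + η)⁻¹) (h1.smul (normL3 F₁ + η)⁻¹)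
      (h2.smul (normL3 F₂ + η)⁻¹)
    rw [form_smul, ← mul_inv, ← mul_inv, inv_mul_le_iff₀ (by positivity)] at h
    refine h.trans ?_
    rw [mul_comm]
    refine mul_le_mul_of_nonneg_right ?_ (by positivity)
    linarith [scaled (F := F₀) hη, scaled (F := F₁) hη, scaled (F := F₂) hη]
  have lim : Tendsto (fun η : ℝ => 288 * ((normL3 F₀ + η) * (normL3 F₁ + η) * (normL3 F₂ + η)))
      (𝓝[>] 0) (𝓝 (288 * ((normL3 F₀ + 0) * (normL3 F₁ + 0) * (normL3 F₂ + 0)))) :=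
    tendsto_nhdsWithin_of_tendsto_nhds (Continuous.tendsto (by fun_prop) 0)
  simpa using ge_of_tendsto lim (eventually_nhdsWithin_of_forall key)

theorem summable_local {F₀ F₁ F₂ : ℝ × ℝ → ℝ} (h0 : Admissible F₀) (k : ℤ) :
    Summable fun I : xorTriples => localForm k I F₀ F₁ F₂ := by
  obtain ⟨R, -, hR⟩ := h0.2.2.exists_pos_le_norm
  refine (hasSum_local hR k ⌈R / 2 ^ k⌉₊ ?_).summable
  have := Nat.le_ceil (R / 2 ^ k)
  rwa [div_le_iff₀ (by positivity), mul_comm] at this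

end Vale.Agent.P075
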