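import Mathlib

namespace Vale.Agent.P075

open Matrix Finset

section
variable {ι κ μ : Type} [Fintype ι] [Fintype κ] [Fintype μ]

/-- Hilbert-Schmidt pairing -/
def ip (A B : Matrix ι κ ℝ) : ℝ := trace (Aᵀ * B)

theorem ip_eq (A B : Matrix ι κ ℝ) : ip A B = ∑ j, ∑ i, A i j * B i j := by
  simp [ip, trace, mul_apply]

theorem ip_comm (A B : Matrix ι κ ℝ) : ip A B = ip B A := by
  simp only [ip_eq, mul_comm]

theorem ip_self_nonneg (A : Matrix ι κ ℝ) : 0 ≤ ip A A := by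
  rw [ip_eq]; exact sum_nonneg fun _ _ => sum_nonneg fun _ _ => mul_self_nonneg _

theorem ip_add_left (A B C : Matrix ι κ ℝ) : ip (A + B) C = ip A C + ip B C := by
  simp [ip, Matrix.add_mul]

theorem ip_add_right (A B C : Matrix ι κ ℝ) : ip A (B + C) = ip A B + ip A C := by
  simp [ip, Matrix.mul_add]

theorem ip_sub_left (A B C : Matrix ι κ ℝ) : ip (A - B) C = ip A C - ip B C := by
  simp [ip, Matrix.sub_mul]

theorem ip_sub_right (A B C : Matrix ι κ ℝ) : ip A (B - C) = ip A B - ip A C := by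
  simp [ip, Matrix.mul_sub]

theorem ip_smul_left (c : ℝ) (A B : Matrix ι κ ℝ) : ip (c • A) B = c * ip A B := by
  simp [ip]

theorem ip_smul_right (c : ℝ) (A B : Matrix ι κ ℝ) : ip A (c • B) = c * ip A B := by
  simp [ip]

theorem ip_mul_left (C : Matrix μ ι ℝ) (A : Matrix ι κ ℝ) (B : Matrix μ κ ℝ) :
    ip (C * A) B = ip A (Cᵀ * B) := by
  simp [ip, Matrix.mul_assoc]

theorem ip_transpose (A B : Matrix ι κ ℝ) : ip Aᵀ Bᵀ = ip A B := by
  simp only [ip_eq, transpose_apply]; exact sum_comm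

theorem ip_mul_right (A : Matrix ι κ ℝ) (C : Matrix κ μ ℝ) (B : Matrix ι μ ℝ) :
    ip (A * C) B = ip A (B * Cᵀ) := by
  rw [← ip_transpose, transpose_mul, ip_mul_left, ← ip_transpose A]; simp

theorem two_ip_le (A B : Matrix ι κ ℝ) : 2 * |ip A B| ≤ ip A A + ip B B := by
  have h1 := ip_self_nonneg (A - B)
  have h2 := ip_self_nonneg (A + B)
  simp only [ip_sub_left, ip_sub_right, ip_add_left, ip_add_right, ip_comm B A] at h1 h2
  rcases abs_cases (ip A B) with h | h <;> linarith [h.1]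

theorem two_tr_le (A : Matrix ι κ ℝ) (B : Matrix κ ι ℝ) :
    2 * |trace (A * B)| ≤ ip A A + ip B B := by
  have := two_ip_le Aᵀ B
  rwa [ip_transpose, ip, transpose_transpose] at this

theorem ip_add_le (A B : Matrix ι κ ℝ) : ip (A + B) (A + B) ≤ 2 * ip A A + 2 * ip B B := by
  have := two_ip_le A B
  have := le_abs_self (ip A B)
  simp only [ip_add_left, ip_add_right, ip_comm B A]; linarith

theorem ip_psd {X : Matrix ι ι ℝ} (hX : X.PosSemidef) (B : Matrix ι κ ℝ) : 0 ≤ ip B (X * B) := by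
  have := (hX.conjTranspose_mul_mul_same B).trace_nonneg
  rwa [conjTranspose_eq_transpose_of_trivial, Matrix.mul_assoc] at this

omit [Fintype ι] in
theorem psd_symm {X : Matrix ι ι ℝ} (hX : X.PosSemidef) : Xᵀ = X := by
  have := hX.1.eq
  rwa [conjTranspose_eq_transpose_of_trivial] at this

theorem psd_gram (N : Matrix ι κ ℝ) : (N * Nᵀ).PosSemidef := by
  simpa using posSemidef_self_mul_conjTranspose N

theorem psd_gram' (N : Matrix ι κ ℝ) : (Nᵀ * N).PosSemidef := by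
  simpa using posSemidef_conjTranspose_mul_self N

/-- contractions -/
def Con (C : Matrix ι ι ℝ) : Prop := ∀ A : Matrix ι ι ℝ, ip (C * A) (C * A) ≤ ip A A

theorem Con.transpose {C : Matrix ι ι ℝ} (h : Con C) : Con Cᵀ := fun A => by
  have h1 := two_ip_le A (C * (Cᵀ * A))
  have h2 := h (Cᵀ * A)
  have h3 : ip (Cᵀ * A) (Cᵀ * A) = ip A (C * (Cᵀ * A)) := by rw [ip_mul_left, transpose_transpose]
  have := le_abs_self (ip A (C * (Cᵀ * A)))
  linarith

theorem Con.mul {C C' : Matrix ι ι ℝ} (h : Con C) (h' : Con C') : Con (C * C') := fun A => by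
  rw [Matrix.mul_assoc]; exact (h _).trans (h' _)

theorem Con.right {C : Matrix ι ι ℝ} (h : Con C) (A : Matrix ι ι ℝ) :
    ip (A * C) (A * C) ≤ ip A A := by
  have := h.transpose Aᵀ
  rwa [← transpose_mul, ip_transpose, ip_transpose] at this

variable [DecidableEq ι] [DecidableEq κ]

/-- resolvent -/
noncomputable def Rz (t : ℝ) (X : Matrix ι ι ℝ) : Matrix ι ι ℝ := (1 + t ^ 2 • X)⁻¹

theorem unit_aux (t : ℝ) {X : Matrix ι ι ℝ} (hX : X.PosSemidef) : IsUnit (1 + t ^ 2 • X) :=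
  (PosDef.one.add_posSemidef (hX.smul (sq_nonneg t))).isUnit

theorem Rz_mul (t : ℝ) {X : Matrix ι ι ℝ} (hX : X.PosSemidef) : Rz t X * (1 + t ^ 2 • X) = 1 :=
  nonsing_inv_mul _ ((isUnit_iff_isUnit_det _).1 (unit_aux t hX))

theorem mul_Rz (t : ℝ) {X : Matrix ι ι ℝ} (hX : X.PosSemidef) : (1 + t ^ 2 • X) * Rz t X = 1 :=
  mul_nonsing_inv _ ((isUnit_iff_isUnit_det _).1 (unit_aux t hX))

theorem Rz_symm (t : ℝ) {X : Matrix ι ι ℝ} (hX : X.PosSemidef) : (Rz t X)ᵀ = Rz t X := by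
  rw [Rz, transpose_nonsing_inv, transpose_add, transpose_one, transpose_smul, psd_symm hX]

theorem Rz_zero (X : Matrix ι ι ℝ) : Rz 0 X = 1 := by simp [Rz]

/-- the potential -/
noncomputable def Pot (t : ℝ) (X : Matrix ι ι ℝ) : ℝ := ip X (Rz t X * X)

theorem pot_ge (t : ℝ) {X : Matrix ι ι ℝ} (hX : X.PosSemidef) (B : Matrix ι ι ℝ) :
    2 * ip B X - ip B B - t ^ 2 * ip B (X * B) ≤ Pot t X := by
  have hA : (1 + t ^ 2 • X).PosSemidef := PosSemidef.one.add (hX.smul (sq_nonneg t))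
  have h := ip_psd hA (B - Rz t X * X)
  have e1 : (1 + t ^ 2 • X) * (B - Rz t X * X) = B + t ^ 2 • (X * B) - X := by
    rw [Matrix.mul_sub, ← Matrix.mul_assoc, mul_Rz t hX]; simp [Matrix.add_mul]
  have e2 : ip (Rz t X * X) (B + t ^ 2 • (X * B)) = ip B X := by
    rw [ip_mul_left, Rz_symm t hX, ip_comm]
    congr 1
    have : B + t ^ 2 • (X * B) = (1 + t ^ 2 • X) * B := by simp [Matrix.add_mul]
    rw [this, ← Matrix.mul_assoc, Rz_mul t hX, Matrix.one_mul]
  rw [e1, ip_sub_left, ip_sub_right (Rz t X * X), e2, ip_sub_right, ip_add_right, ip_smul_right,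
    ip_comm (Rz t X * X)] at h
  unfold Pot; linarith

theorem pot_eq (t : ℝ) {X : Matrix ι ι ℝ} (hX : X.PosSemidef) :
    2 * ip (Rz t X * X) X - ip (Rz t X * X) (Rz t X * X) -
      t ^ 2 * ip (Rz t X * X) (X * (Rz t X * X)) = Pot t X := by
  have e : Rz t X * X + t ^ 2 • (X * (Rz t X * X)) = X := by
    have : Rz t X * X + t ^ 2 • (X * (Rz t X * X)) = (1 + t ^ 2 • X) * Rz t X * X := by
      simp [Matrix.add_mul, Matrix.mul_assoc]
    rw [this, mul_Rz t hX, Matrix.one_mul]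
  have e2 : ip (Rz t X * X) (Rz t X * X + t ^ 2 • (X * (Rz t X * X))) = ip (Rz t X * X) X := by
    rw [e]
  rw [ip_add_right, ip_smul_right] at e2
  rw [Pot, ip_comm X]; linarith

theorem pot_nonneg (t : ℝ) {X : Matrix ι ι ℝ} (hX : X.PosSemidef) : 0 ≤ Pot t X := by
  simpa [ip] using pot_ge t hX 0

theorem pot_convex (t : ℝ) {X Y S : Matrix ι ι ℝ} (hX : X.PosSemidef) (hY : Y.PosSemidef)
    (hS : S.PosSemidef) (h : X + Y = (2 : ℝ) • S) : 2 * Pot t S ≤ Pot t X + Pot t Y := by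
  have h1 := pot_ge t hX (Rz t S * S)
  have h2 := pot_ge t hY (Rz t S * S)
  have h3 := pot_eq t hS
  have h4 : ip (Rz t S * S) X + ip (Rz t S * S) Y = 2 * ip (Rz t S * S) S := by
    rw [← ip_add_right, h, ip_smul_right]
  have h5 : ip (Rz t S * S) (X * (Rz t S * S)) + ip (Rz t S * S) (Y * (Rz t S * S)) =
      2 * ip (Rz t S * S) (S * (Rz t S * S)) := by
    rw [← ip_add_right, ← Matrix.add_mul, h, Matrix.smul_mul, ip_smul_right]
  have h6 : t ^ 2 * ip (Rz t S * S) (X * (Rz t S * S)) + t ^ 2 * ip (Rz t S * S) (Y * (Rz t S * S))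
      = 2 * (t ^ 2 * ip (Rz t S * S) (S * (Rz t S * S))) := by rw [← mul_add, h5]; ring
  linarith

theorem push (t : ℝ) (Z : Matrix ι κ ℝ) (W : Matrix κ ι ℝ) (h1 : (Z * W).PosSemidef)
    (h2 : (W * Z).PosSemidef) : Rz t (Z * W) * Z = Z * Rz t (W * Z) := by
  have e : (1 + t ^ 2 • (Z * W)) * Z = Z * (1 + t ^ 2 • (W * Z)) := by
    simp [Matrix.add_mul, Matrix.mul_add, Matrix.mul_assoc]
  calc Rz t (Z * W) * Z = Rz t (Z * W) * (Z * ((1 + t ^ 2 • (W * Z)) * Rz t (W * Z))) := by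
        rw [mul_Rz t h2, Matrix.mul_one]
    _ = Z * Rz t (W * Z) := by
        rw [← Matrix.mul_assoc Z, ← e, ← Matrix.mul_assoc, ← Matrix.mul_assoc, Rz_mul t h1,
          Matrix.one_mul]

theorem pot_push (t : ℝ) (Z : Matrix ι κ ℝ) (W : Matrix κ ι ℝ) (h1 : (Z * W).PosSemidef)
    (h2 : (W * Z).PosSemidef) : Pot t (Z * W) = Pot t (W * Z) := by
  unfold Pot ip
  rw [psd_symm h1, psd_symm h2, ← Matrix.mul_assoc (Rz t (Z * W)), push t Z W h1 h2,
    Matrix.mul_assoc Z W, trace_mul_comm Z]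
  simp only [Matrix.mul_assoc]

theorem Rz_X (t : ℝ) {X : Matrix ι ι ℝ} (hX : X.PosSemidef) :
    t ^ 2 • (X * Rz t X) = 1 - Rz t X := by
  rw [← mul_Rz t hX]; simp [Matrix.add_mul]

theorem pot_strong (t : ℝ) {n w : Matrix ι ι ℝ} (hn : n.PosSemidef) (h1 : (n + w).PosSemidef)
    (h2 : (n - w).PosSemidef) (hw : wᵀ = w) :
    2 * Pot t n + 2 * ip (Rz t n * w * Rz t n) (Rz t n * w * Rz t n) ≤
      Pot t (n + w) + Pot t (n - w) := by
  set r := Rz t n with hr
  have rs : rᵀ = r := Rz_symm t hn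
  have a1 := pot_ge t h1 (r * n + r * w * r)
  have a2 := pot_ge t h2 (r * n - r * w * r)
  have a3 := pot_eq t hn
  rw [← hr] at a3
  set b := r * n with hb
  set c := r * w * r with hc
  simp only [ip_add_left, ip_add_right, ip_sub_left, ip_sub_right, Matrix.add_mul, Matrix.sub_mul,
    Matrix.mul_add, Matrix.mul_sub] at a1 a2
  have e1 : ip c (w * b) = ip b (w * c) := by
    rw [ip_comm, ip_mul_left, hw]
  have k : t ^ 2 • (n * r) = 1 - r := Rz_X t hn
  -- q = tr (w r w r), z = tr (r w r w r)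
  have e2 : ip c w = trace (w * r * w * r) := by
    rw [ip, hc]; simp only [transpose_mul, rs, hw, Matrix.mul_assoc]
    rw [trace_mul_comm]; simp only [Matrix.mul_assoc]
  have e3 : t ^ 2 * ip b (w * c) = trace (w * r * w * r) - trace (r * w * r * w * r) := by
    rw [← ip_smul_left, ip, hb, transpose_smul, transpose_mul, rs, psd_symm hn, k, hc]
    simp only [Matrix.sub_mul, Matrix.one_mul, trace_sub, Matrix.mul_assoc]
  have e4 : ip c c + t ^ 2 * ip c (n * c) = trace (r * w * r * w * r) := by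
    rw [← ip_smul_right, ← ip_add_right]
    have : c + t ^ 2 • (n * c) = w * r := by
      rw [hc, Matrix.mul_assoc, ← Matrix.mul_assoc n, ← Matrix.smul_mul, k]
      simp [Matrix.sub_mul]
    rw [this, ip, hc]; simp only [transpose_mul, rs, hw, Matrix.mul_assoc]
  have e5 : 0 ≤ t ^ 2 * ip c (n * c) := mul_nonneg (sq_nonneg _) (ip_psd hn _)
  rw [e1] at a1 a2
  nlinarith

/-- squared size of the node -/
noncomputable def gam (t : ℝ) (D X : Matrix ι ι ℝ) : ℝ :=
  trace (X * (Rz t X * D * Rz t X) * X * (Rz t X * D * Rz t X))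

/-- the vertex operator -/
def XX (L M : Matrix ι ι ℝ) : Matrix ι ι ℝ := Lᵀ * L + M * Mᵀ

omit [DecidableEq ι] in
theorem XX_psd (L M : Matrix ι ι ℝ) : (XX L M).PosSemidef := (psd_gram' L).add (psd_gram M)

theorem pot_gain (t : ℝ) (N : Matrix ι κ ℝ) (Q : Bool → Matrix ι ι ℝ) (hs : ∀ j, (Q j)ᵀ = Q j)
    (hi : ∀ j, Q j * Q j = Q j) (h1 : Q false + Q true = 1) :
    2 * Pot t (N * Nᵀ) + 2 * gam t (Q false - Q true) (N * Nᵀ) ≤
      ∑ j, Pot t ((2 : ℝ) • (Q j * (N * Nᵀ) * Q j)) := by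
  have p1 : ∀ j, ((2 : ℝ) • (Q j * N) * (Nᵀ * Q j)).PosSemidef := fun j => by
    have := (psd_gram (Q j * N)).smul (show (0 : ℝ) ≤ 2 by norm_num)
    simpa [hs, Matrix.mul_assoc] using this
  have p2 : ∀ j, (Nᵀ * Q j * ((2 : ℝ) • (Q j * N))).PosSemidef := fun j => by
    have := (psd_gram' (Q j * N)).smul (show (0 : ℝ) ≤ 2 by norm_num)
    simpa [hs, Matrix.mul_assoc] using this
  have e1 : ∀ j, Pot t ((2 : ℝ) • (Q j * (N * Nᵀ) * Q j)) =
      Pot t (Nᵀ * Q j * ((2 : ℝ) • (Q j * N))) := fun j => by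
    rw [← pot_push t _ _ (p1 j) (p2 j)]; simp [Matrix.mul_assoc]
  have e0 : ∀ j, Nᵀ * Q j * ((2 : ℝ) • (Q j * N)) = (2 : ℝ) • (Nᵀ * Q j * N) := fun j => by
    rw [Matrix.mul_smul, Matrix.mul_assoc, ← Matrix.mul_assoc (Q j), hi, Matrix.mul_assoc]
  have e2 : Nᵀ * Q false * ((2 : ℝ) • (Q false * N)) = Nᵀ * N + Nᵀ * (Q false - Q true) * N := by
    have : Nᵀ * N = Nᵀ * (Q false + Q true) * N := by rw [h1, Matrix.mul_one]
    rw [e0, this, two_smul]; simp only [Matrix.mul_add, Matrix.mul_sub, Matrix.add_mul,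
      Matrix.sub_mul]; abel
  have e3 : Nᵀ * Q true * ((2 : ℝ) • (Q true * N)) = Nᵀ * N - Nᵀ * (Q false - Q true) * N := by
    have : Nᵀ * N = Nᵀ * (Q false + Q true) * N := by rw [h1, Matrix.mul_one]
    rw [e0, this, two_smul]; simp only [Matrix.mul_add, Matrix.mul_sub, Matrix.add_mul,
      Matrix.sub_mul]; abel
  have hD : (Q false - Q true)ᵀ = Q false - Q true := by rw [transpose_sub, hs, hs]
  have h := pot_strong t (psd_gram' N) (e2 ▸ p2 false) (e3 ▸ p2 true)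
    (by simp only [transpose_mul, transpose_transpose, hD, Matrix.mul_assoc])
  rw [Fintype.sum_bool, e1, e1, e2, e3, pot_push t N Nᵀ (psd_gram N) (psd_gram' N)]
  have k1 := push t N Nᵀ (psd_gram N) (psd_gram' N)
  have k2 := push t Nᵀ N (psd_gram' N) (psd_gram N)
  have e4 : Rz t (Nᵀ * N) * (Nᵀ * (Q false - Q true) * N) * Rz t (Nᵀ * N) =
      Nᵀ * (Rz t (N * Nᵀ) * (Q false - Q true) * Rz t (N * Nᵀ)) * N := by
    simp only [Matrix.mul_assoc]
    rw [← k1, ← Matrix.mul_assoc, k2, Matrix.mul_assoc]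
  have e5 : ip (Nᵀ * (Rz t (N * Nᵀ) * (Q false - Q true) * Rz t (N * Nᵀ)) * N)
      (Nᵀ * (Rz t (N * Nᵀ) * (Q false - Q true) * Rz t (N * Nᵀ)) * N) =
      gam t (Q false - Q true) (N * Nᵀ) := by
    have hE : (Rz t (N * Nᵀ) * (Q false - Q true) * Rz t (N * Nᵀ))ᵀ =
        Rz t (N * Nᵀ) * (Q false - Q true) * Rz t (N * Nᵀ) := by
      simp only [transpose_mul, hD, Rz_symm t (psd_gram N), Matrix.mul_assoc]
    rw [ip, gam]
    generalize Rz t (N * Nᵀ) * (Q false - Q true) * Rz t (N * Nᵀ) = E at hE ⊢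
    rw [transpose_mul, transpose_mul, transpose_transpose, hE, ← Matrix.mul_assoc _ _ N,
      trace_mul_comm _ N]
    simp only [Matrix.mul_assoc]
  rw [e4, e5] at h
  linarith

theorem node_step (t : ℝ) (L M : Matrix ι ι ℝ) (Q : Bool → Matrix ι ι ℝ) (hs : ∀ j, (Q j)ᵀ = Q j)
    (hi : ∀ j, Q j * Q j = Q j) (h1 : Q false + Q true = 1) :
    4 * (Pot t (XX L M) + gam t (Q false - Q true) (XX L M)) ≤
      ∑ i, ∑ j, Pot t (XX ((2 : ℝ) • (Q i * L * Q j)) ((2 : ℝ) • (Q j * M * Q (xor i j)))) := by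
  have hN : XX L M = fromCols Lᵀ M * (fromCols Lᵀ M)ᵀ := by
    rw [transpose_fromCols, fromCols_mul_fromRows, transpose_transpose, XX]
  have h := pot_gain t (fromCols Lᵀ M) Q hs hi h1
  rw [← hN] at h
  rw [sum_comm]
  refine le_trans (by linarith) (le_trans (le_of_eq (mul_sum univ
    (fun j => Pot t ((2 : ℝ) • (Q j * XX L M * Q j))) 2)) (sum_le_sum fun j _ => ?_))
  rw [Fintype.sum_bool]
  refine pot_convex t (XX_psd _ _) (XX_psd _ _) ?_ ?_
  · have := ((XX_psd L M).conjTranspose_mul_mul_same (Q j)).smul (show (0 : ℝ) ≤ 2 by norm_num)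
    simpa [hs] using this
  · have q1 : ∀ i (A : Matrix ι ι ℝ), Q i * (Q i * A) = Q i * A := fun i A => by
      rw [← Matrix.mul_assoc, hi]
    have q2 : ∀ A : Matrix ι ι ℝ, A = Q false * A + Q true * A := fun A => by
      rw [← Matrix.add_mul, h1, Matrix.one_mul]
    simp only [XX, transpose_smul, transpose_mul, hs, Matrix.smul_mul, Matrix.mul_smul,
      Matrix.mul_assoc, q1, Matrix.mul_add, Matrix.add_mul, smul_add]
    conv_rhs => rw [q2 (L * Q j), q2 (Mᵀ * Q j)]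
    simp only [Matrix.mul_add, smul_add]
    cases j <;> simp only [Bool.xor_false, Bool.xor_true, Bool.not_true, Bool.not_false] <;> abel

end

end Vale.Agent.P075
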